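import Vale.Agent.P157.OneStep

/-! P157, part 4: factorisation over two blocks and the binomial estimate. -/

open MeasureTheory ProbabilityTheory Real Filter
open scoped BigOperators Topology

namespace Vale.Agent.P157

/-- Restricting a standard Gaussian vector along an injection gives a standard Gaussian vector. -/
theorem mp_inj {V W : Type*} [Fintype V] [Fintype W] (e : W → V) (he : Function.Injective e) :
    MeasurePreserving (fun (g : V → ℝ) (w : W) => g (e w)) (gam V) (gam W) := by
  classical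
  refine ⟨by fun_prop, ?_⟩
  unfold gam
  symm
  refine Measure.pi_eq fun s hs => ?_
  have hm : Measurable (fun (g : V → ℝ) (w : W) => g (e w)) := by fun_prop
  rw [Measure.map_apply hm (MeasurableSet.univ_pi hs)]
  have hpre : (fun (g : V → ℝ) (w : W) => g (e w)) ⁻¹' (Set.univ.pi s)
      = Set.univ.pi (fun v => ⋂ (w : W) (_ : e w = v), s w) := by
    ext g
    simp only [Set.mem_preimage, Set.mem_univ_pi, Set.mem_iInter]
    constructor
    · intro h v w hw
      rw [← hw]; exact h w
    · intro h w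
      exact h (e w) w rfl
  rw [hpre, Measure.pi_pi]
  symm
  refine Fintype.prod_of_injective e he _ _ ?_ ?_
  · intro v hv
    have : (⋂ (w : W) (_ : e w = v), s w) = Set.univ := by
      refine Set.eq_univ_of_forall fun x => ?_
      simp only [Set.mem_iInter]
      intro w hw
      exact absurd ⟨w, hw⟩ hv
    rw [this]
    simp
  · intro w
    have : (⋂ (w' : W) (_ : e w' = e w), s w') = s w := by
      ext x
      simp only [Set.mem_iInter]
      constructor
      · intro h; exact h w rfl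
      · intro h w' hw'
        rw [he hw']; exact h
    rw [this]

/-- Binomial averages of functions of two counters. -/
noncomputable def bin (k1 k2 : ℝ) : ℕ → (ℕ → ℕ → ℝ) → ℝ
  | 0, φ => φ 0 0
  | M + 1, φ => k1 * bin k1 k2 M (fun i j => φ (i + 1) j) + k2 * bin k1 k2 M (fun i j => φ i (j + 1))

section binl

variable {k1 k2 : ℝ}

theorem bin_mono (h1 : 0 ≤ k1) (h2 : 0 ≤ k2) (M : ℕ) {φ ψ : ℕ → ℕ → ℝ}
    (h : ∀ i j, φ i j ≤ ψ i j) : bin k1 k2 M φ ≤ bin k1 k2 M ψ := by
  induction M generalizing φ ψ with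
  | zero => exact h 0 0
  | succ M ih =>
    exact add_le_add (mul_le_mul_of_nonneg_left (ih fun i j => h _ _) h1)
      (mul_le_mul_of_nonneg_left (ih fun i j => h _ _) h2)

theorem bin_lin (M : ℕ) (φ ψ : ℕ → ℕ → ℝ) (s t : ℝ) :
    bin k1 k2 M (fun i j => s * φ i j + t * ψ i j) = s * bin k1 k2 M φ + t * bin k1 k2 M ψ := by
  induction M generalizing φ ψ with
  | zero => rfl
  | succ M ih =>
    show k1 * bin k1 k2 M (fun i j => s * φ (i + 1) j + t * ψ (i + 1) j)
      + k2 * bin k1 k2 M (fun i j => s * φ i (j + 1) + t * ψ i (j + 1)) = _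
    rw [ih (fun i j => φ (i + 1) j) (fun i j => ψ (i + 1) j),
      ih (fun i j => φ i (j + 1)) (fun i j => ψ i (j + 1))]
    show _ = s * (k1 * bin k1 k2 M (fun i j => φ (i + 1) j)
      + k2 * bin k1 k2 M (fun i j => φ i (j + 1)))
      + t * (k1 * bin k1 k2 M (fun i j => ψ (i + 1) j)
      + k2 * bin k1 k2 M (fun i j => ψ i (j + 1)))
    ring

theorem bin_const (h12 : k1 + k2 = 1) (M : ℕ) (s : ℝ) : bin k1 k2 M (fun _ _ => s) = s := by
  induction M with
  | zero => rfl
  | succ M ih =>
    show k1 * bin k1 k2 M (fun _ _ => s) + k2 * bin k1 k2 M (fun _ _ => s) = s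
    rw [ih, ← add_mul, h12, one_mul]

theorem bin_sq1 (h12 : k1 + k2 = 1) (M : ℕ) (s : ℝ) :
    bin k1 k2 M (fun i _ => ((i : ℝ) + s) ^ 2) = (M * k1 + s) ^ 2 + M * (k1 * k2) := by
  induction M generalizing s with
  | zero => simp [bin]
  | succ M ih =>
    show k1 * bin k1 k2 M (fun i _ => (((i + 1 : ℕ) : ℝ) + s) ^ 2)
      + k2 * bin k1 k2 M (fun i _ => ((i : ℝ) + s) ^ 2) = _
    have e : (fun (i _ : ℕ) => (((i + 1 : ℕ) : ℝ) + s) ^ 2)
        = fun (i _ : ℕ) => ((i : ℝ) + (1 + s)) ^ 2 := by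
      funext i j; push_cast; ring
    rw [e, ih, ih]
    have : k2 = 1 - k1 := by linarith
    subst this
    push_cast
    ring

theorem bin_sq2 (h12 : k1 + k2 = 1) (M : ℕ) (s : ℝ) :
    bin k1 k2 M (fun _ j => ((j : ℝ) + s) ^ 2) = (M * k2 + s) ^ 2 + M * (k1 * k2) := by
  induction M generalizing s with
  | zero => simp [bin]
  | succ M ih =>
    show k1 * bin k1 k2 M (fun _ j => ((j : ℝ) + s) ^ 2)
      + k2 * bin k1 k2 M (fun _ j => (((j + 1 : ℕ) : ℝ) + s) ^ 2) = _
    have e : (fun (_ j : ℕ) => (((j + 1 : ℕ) : ℝ) + s) ^ 2)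
        = fun (_ j : ℕ) => ((j : ℝ) + (1 + s)) ^ 2 := by
      funext i j; push_cast; ring
    rw [e, ih, ih]
    have : k2 = 1 - k1 := by linarith
    subst this
    push_cast
    ring

theorem bin_integral {Ω : Type*} [MeasurableSpace Ω] {μ : Measure Ω} (M : ℕ)
    (φ : Ω → ℕ → ℕ → ℝ) (h : ∀ i j, Integrable (fun ω => φ ω i j) μ) :
    Integrable (fun ω => bin k1 k2 M (φ ω)) μ ∧
      ∫ ω, bin k1 k2 M (φ ω) ∂μ = bin k1 k2 M (fun i j => ∫ ω, φ ω i j ∂μ) := by
  induction M generalizing φ with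
  | zero => exact ⟨h 0 0, rfl⟩
  | succ M ih =>
    obtain ⟨a1, a2⟩ := ih (fun ω i j => φ ω (i + 1) j) (fun i j => h _ _)
    obtain ⟨b1, b2⟩ := ih (fun ω i j => φ ω i (j + 1)) (fun i j => h _ _)
    refine ⟨(a1.const_mul k1).add (b1.const_mul k2), ?_⟩
    show ∫ ω, (k1 * bin k1 k2 M (fun i j => φ ω (i + 1) j)
      + k2 * bin k1 k2 M (fun i j => φ ω i (j + 1))) ∂μ = _
    rw [integral_add (a1.const_mul k1) (b1.const_mul k2), integral_const_mul, integral_const_mul,
      a2, b2]
    rfl

end binl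

section blocks

variable {V W : Type*} [Fintype V] [Fintype W] [DecidableEq V] [DecidableEq W]

/-- Log-weights which are sums over the two blocks. -/
def comb (u : (V → Bool) → ℝ) (w : (W → Bool) → ℝ) (x : V ⊕ W → Bool) : ℝ :=
  u (fun v => x (Sum.inl v)) + w (fun v => x (Sum.inr v))

theorem Lam_comb (u : (V → Bool) → ℝ) (w : (W → Bool) → ℝ) :
    Lam (V ⊕ W) (comb u w) = Lam V u + Lam W w := by
  unfold Lam
  rw [← Real.log_mul (Lam_pos u).ne' (Lam_pos w).ne']
  congr 1
  have e : ∑ x : V ⊕ W → Bool, Real.exp (comb u w x)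
      = (∑ x : V → Bool, Real.exp (u x)) * ∑ y : W → Bool, Real.exp (w y) := by
    rw [Finset.sum_mul_sum, ← Finset.sum_product', Finset.univ_product_univ]
    refine Fintype.sum_equiv (Equiv.sumArrowEquivProdArrow V W Bool) _ _ fun x => ?_
    rw [← Real.exp_add]
    rfl
  rw [e, Fintype.card_sum, pow_add]
  field_simp

variable {f : ℝ → ℝ} {B : ℝ}

omit [DecidableEq V] [DecidableEq W] in
theorem fld_left (a : V → ℝ) (g : V ⊕ W → ℝ) (x : V ⊕ W → Bool) :
    fld (Sum.elim a (fun _ => 0)) g x = fld a (fun v => g (Sum.inl v)) (fun v => x (Sum.inl v)) := by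
  unfold fld
  rw [Fintype.sum_sum_type]
  simp

omit [DecidableEq V] [DecidableEq W] in
theorem fld_right (a : W → ℝ) (g : V ⊕ W → ℝ) (x : V ⊕ W → Bool) :
    fld (Sum.elim (fun _ => 0) a) g x = fld a (fun v => g (Sum.inr v)) (fun v => x (Sum.inr v)) := by
  unfold fld
  rw [Fintype.sum_sum_type]
  simp

theorem T_left (hf : Continuous f) {Ψ : ((V ⊕ W → Bool) → ℝ) → ℝ} (hΨ : LipschitzWith 1 Ψ)
    (a : V → ℝ) (u : (V → Bool) → ℝ) (w : (W → Bool) → ℝ) :
    T f (Sum.elim a (fun _ => 0)) Ψ (comb u w)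
      = ∫ g, Ψ (comb (fun x => u x + f (fld a g x)) w) ∂(gam V) := by
  unfold T
  have h1 := (mp_inj (Sum.inl : V → V ⊕ W) Sum.inl_injective)
  have hc : Continuous (fun g : V → ℝ => Ψ (comb (fun x => u x + f (fld a g x)) w)) := by
    refine hΨ.continuous.comp (continuous_pi fun x => ?_)
    unfold comb
    exact (continuous_const.add (hf.comp (fld_cont a _))).add continuous_const
  rw [← h1.map_eq, integral_map h1.aemeasurable hc.aestronglyMeasurable]
  refine integral_congr_ae (Eventually.of_forall fun g => ?_)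
  simp only
  congr 1
  funext x
  rw [fld_left]
  unfold comb
  ring

theorem T_right (hf : Continuous f) {Ψ : ((V ⊕ W → Bool) → ℝ) → ℝ} (hΨ : LipschitzWith 1 Ψ)
    (a : W → ℝ) (u : (V → Bool) → ℝ) (w : (W → Bool) → ℝ) :
    T f (Sum.elim (fun _ => 0) a) Ψ (comb u w)
      = ∫ g, Ψ (comb u (fun x => w x + f (fld a g x))) ∂(gam W) := by
  unfold T
  have h1 := (mp_inj (Sum.inr : W → V ⊕ W) Sum.inr_injective)
  have hc : Continuous (fun g : W → ℝ => Ψ (comb u (fun x => w x + f (fld a g x)))) := by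
    refine hΨ.continuous.comp (continuous_pi fun x => ?_)
    unfold comb
    exact continuous_const.add (continuous_const.add (hf.comp (fld_cont a _)))
  rw [← h1.map_eq, integral_map h1.aemeasurable hc.aestronglyMeasurable]
  refine integral_congr_ae (Eventually.of_forall fun g => ?_)
  simp only
  congr 1
  funext x
  rw [fld_right]
  unfold comb
  ring

/-- Factorisation: the mixed operators on block-sum weights are binomial averages. -/
theorem R_comb (hf : Continuous f) (hB : ∀ s, |f s| ≤ B) {k1 k2 : ℝ} (h1 : 0 ≤ k1) (h2 : 0 ≤ k2)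
    (h12 : k1 + k2 = 1) (a : V → ℝ) (b : W → ℝ) (M : ℕ)
    (u : (V → Bool) → ℝ) (w : (W → Bool) → ℝ) :
    (R f k1 k2 (Sum.elim a (fun _ => 0)) (Sum.elim (fun _ => 0) b))^[M] (Lam (V ⊕ W)) (comb u w)
      = bin k1 k2 M (fun i j => (T f a)^[i] (Lam V) u + (T f b)^[j] (Lam W) w) := by
  induction M generalizing u w with
  | zero => exact Lam_comb u w
  | succ M ih =>
    rw [Function.iterate_succ_apply']
    unfold R
    have hL := R_iter_lip hf hB (Lam_lip (V := V ⊕ W)) h1 h2 h12
      (Sum.elim a (fun _ => 0)) (Sum.elim (fun _ => 0) b) M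
    unfold R at hL
    rw [T_left hf hL, T_right hf hL]
    unfold R at ih
    simp_rw [ih]
    have iA : ∀ i j : ℕ, Integrable (fun g => (T f a)^[i] (Lam V) (fun x => u x + f (fld a g x))
        + (T f b)^[j] (Lam W) w) (gam V) := fun i j =>
      (T_int hf hB (T_iter_lip hf hB Lam_lip a i) a u).add (integrable_const _)
    have iB : ∀ i j : ℕ, Integrable (fun g => (T f a)^[i] (Lam V) u
        + (T f b)^[j] (Lam W) (fun x => w x + f (fld b g x))) (gam W) := fun i j =>
      (integrable_const _).add (T_int hf hB (T_iter_lip hf hB Lam_lip b j) b w)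
    rw [(bin_integral M (fun (g : V → ℝ) (i j : ℕ) =>
        (T f a)^[i] (Lam V) (fun x => u x + f (fld a g x)) + (T f b)^[j] (Lam W) w) iA).2,
      (bin_integral M (fun (g : W → ℝ) (i j : ℕ) =>
        (T f a)^[i] (Lam V) u + (T f b)^[j] (Lam W) (fun x => w x + f (fld b g x))) iB).2]
    show _ = k1 * bin k1 k2 M (fun i j => (T f a)^[i + 1] (Lam V) u + (T f b)^[j] (Lam W) w)
      + k2 * bin k1 k2 M (fun i j => (T f a)^[i] (Lam V) u + (T f b)^[j + 1] (Lam W) w)
    congr 2
    · congr 1
      funext i j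
      rw [integral_add (T_int hf hB (T_iter_lip hf hB Lam_lip a i) a u) (integrable_const _),
        Function.iterate_succ_apply']
      simp only [integral_const, probReal_univ, smul_eq_mul, one_mul]
      rfl
    · congr 1
      funext i j
      rw [integral_add (integrable_const _) (T_int hf hB (T_iter_lip hf hB Lam_lip b j) b w),
        Function.iterate_succ_apply']
      simp only [integral_const, probReal_univ, smul_eq_mul, one_mul]
      rfl

/-- Mean log-partition function with `M` patterns on the site set `V`. -/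
noncomputable def AA (f : ℝ → ℝ) (V : Type*) [Fintype V] [DecidableEq V] (M : ℕ) : ℝ :=
  (T f (fun _ : V => 1 / √(Fintype.card V : ℝ)))^[M] (Lam V) (fun _ => 0)

omit [DecidableEq V] [DecidableEq W] in
theorem scale_ok (hV : 0 < Fintype.card V) (hW : 0 < Fintype.card W) (v : V ⊕ W) :
    (1 / √(Fintype.card (V ⊕ W) : ℝ)) ^ 2
      = ((Fintype.card V : ℝ) / Fintype.card (V ⊕ W))
          * (Sum.elim (fun _ : V => 1 / √(Fintype.card V : ℝ)) (fun _ => 0) v) ^ 2
        + ((Fintype.card W : ℝ) / Fintype.card (V ⊕ W))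
          * (Sum.elim (fun _ => 0) (fun _ : W => 1 / √(Fintype.card W : ℝ)) v) ^ 2 := by
  have hV' : (0 : ℝ) < Fintype.card V := by exact_mod_cast hV
  have hW' : (0 : ℝ) < Fintype.card W := by exact_mod_cast hW
  have hVW : (0 : ℝ) < Fintype.card (V ⊕ W) := by
    rw [Fintype.card_sum]; push_cast; linarith
  cases v with
  | inl v =>
    simp only [Sum.elim_inl]
    rw [div_pow, div_pow, Real.sq_sqrt hV'.le, Real.sq_sqrt hVW.le]
    field_simp
    ring
  | inr v =>
    simp only [Sum.elim_inr]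
    rw [div_pow, div_pow, Real.sq_sqrt hW'.le, Real.sq_sqrt hVW.le]
    field_simp
    ring

/-- Superadditivity with binomial pattern numbers. -/
theorem AA_super {c : ℝ} {ν : Measure ℝ} [IsFiniteMeasure ν] (h : Hyp f c ν)
    (hV : 0 < Fintype.card V) (hW : 0 < Fintype.card W) (M : ℕ) :
    bin ((Fintype.card V : ℝ) / Fintype.card (V ⊕ W)) ((Fintype.card W : ℝ) / Fintype.card (V ⊕ W)) M
      (fun i j => AA f V i + AA f W j) ≤ AA f (V ⊕ W) M := by
  obtain ⟨B, hB⟩ := h.bdd
  have hV' : (0 : ℝ) < Fintype.card V := by exact_mod_cast hV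
  have hW' : (0 : ℝ) < Fintype.card W := by exact_mod_cast hW
  have hVW : (0 : ℝ) < Fintype.card (V ⊕ W) := by
    rw [Fintype.card_sum]; push_cast; linarith
  have h1 : 0 ≤ ((Fintype.card V : ℝ) / Fintype.card (V ⊕ W)) := by positivity
  have h2 : 0 ≤ ((Fintype.card W : ℝ) / Fintype.card (V ⊕ W)) := by positivity
  have h12 : ((Fintype.card V : ℝ) / Fintype.card (V ⊕ W))
      + ((Fintype.card W : ℝ) / Fintype.card (V ⊕ W)) = 1 := by
    rw [← add_div, div_eq_one_iff_eq hVW.ne', Fintype.card_sum]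
    push_cast; rfl
  unfold AA
  rw [← R_comb h.cont hB h1 h2 h12]
  have e : (comb (fun _ => 0) (fun _ => 0) : (V ⊕ W → Bool) → ℝ) = fun _ => 0 := by
    funext x; simp [comb]
  rw [e]
  refine interpolation h.cont hB Lam_lip h1 h2 h12 _ _ _ (fun u => ?_) M _
  exact h.one_step h1 h2 h12 (fun v => scale_ok hV hW v) u

/-- Relabelling invariance. -/
theorem T_equiv (hf : Continuous f) (e : V ≃ W) (s : ℝ)
    (Ψ : ((V → Bool) → ℝ) → ℝ) (Φ : ((W → Bool) → ℝ) → ℝ) (hΦ : LipschitzWith 1 Φ)
    (h : ∀ u : (V → Bool) → ℝ, Φ (fun y => u (fun v => y (e v))) = Ψ u)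
    (u : (V → Bool) → ℝ) :
    T f (fun _ : W => s) Φ (fun y => u (fun v => y (e v))) = T f (fun _ : V => s) Ψ u := by
  unfold T
  have h1 := mp_inj (e.symm : W → V) e.symm.injective
  have hc : Continuous (fun g : W → ℝ => Φ (fun y => u (fun v => y (e v))
      + f (fld (fun _ => s) g y))) := by
    refine hΦ.continuous.comp (continuous_pi fun x => ?_)
    exact (continuous_const.add (hf.comp (fld_cont _ _)))
  rw [← h1.map_eq, integral_map h1.aemeasurable hc.aestronglyMeasurable]
  refine integral_congr_ae (Eventually.of_forall fun g => ?_)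
  simp only
  rw [← h]
  congr 1
  funext y
  congr 2
  unfold fld
  refine (Fintype.sum_equiv e _ _ fun v => ?_).symm
  simp

theorem AA_equiv (hf : Continuous f) (hB : ∀ s, |f s| ≤ B) (e : V ≃ W) (M : ℕ) :
    AA f V M = AA f W M := by
  have hcard : Fintype.card V = Fintype.card W := Fintype.card_congr e
  unfold AA
  rw [hcard]
  have key : ∀ (M : ℕ) (u : (V → Bool) → ℝ),
      (T f (fun _ : W => 1 / √(Fintype.card W : ℝ)))^[M] (Lam W) (fun y => u (fun v => y (e v)))
        = (T f (fun _ : V => 1 / √(Fintype.card W : ℝ)))^[M] (Lam V) u := by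
    intro M
    induction M with
    | zero =>
      intro u
      show Lam W _ = Lam V u
      unfold Lam
      rw [hcard]
      congr 2
      refine Fintype.sum_equiv (Equiv.arrowCongr e.symm (Equiv.refl Bool)) _ _ fun y => ?_
      congr 2
    | succ M ih =>
      intro u
      rw [Function.iterate_succ_apply', Function.iterate_succ_apply']
      exact T_equiv hf e _ _ _ (T_iter_lip hf hB Lam_lip _ M) ih u
  exact (key M (fun _ => 0)).symm

end blocks

end Vale.Agent.P157
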