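import Vale.Agent.P157.Blocks

/-! P157, part 5: almost superadditivity and the existence of the limit. -/

open MeasureTheory ProbabilityTheory Real Filter
open scoped BigOperators Topology

namespace Vale.Agent.P157

/-- Almost superadditive sequences: the normalised sequence converges. -/
theorem tendsto_of_almost_super (b D : ℕ → ℝ) (K : ℝ)
    (hsup : ∀ m n : ℕ, 1 ≤ m → 1 ≤ n → b m + b n - D n ≤ b (m + n))
    (hD : Tendsto (fun n : ℕ => D n / n) atTop (𝓝 0)) (hD0 : ∀ n, 0 ≤ D n)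
    (hK : ∀ n : ℕ, |b n| ≤ K * n) : ∃ L : ℝ, Tendsto (fun n : ℕ => b n / n) atTop (𝓝 L) ∧
      ∀ n : ℕ, 1 ≤ n → (b n - D n) / n ≤ L := by
  have hK0 : 0 ≤ K := by
    have := hK 1
    have h2 := abs_nonneg (b 1)
    simp only [Nat.cast_one, mul_one] at this
    linarith
  set β : ℕ → ℝ := fun n => (b n - D n) / n with hβ
  have hβK : ∀ n : ℕ, 1 ≤ n → β n ≤ K := by
    intro n hn
    have hn' : (0 : ℝ) < n := by exact_mod_cast hn
    rw [hβ]
    simp only
    rw [div_le_iff₀ hn']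
    have h1 := (abs_le.1 (hK n)).2
    have h2 := hD0 n
    linarith
  set S : Set ℝ := β '' {n : ℕ | 1 ≤ n} with hS
  have hSne : S.Nonempty := ⟨β 1, 1, by simp, rfl⟩
  have hSb : BddAbove S := ⟨K, by rintro _ ⟨n, hn, rfl⟩; exact hβK n hn⟩
  have iter : ∀ (n r q : ℕ), 1 ≤ n → 1 ≤ r → b r + q * (b n - D n) ≤ b (r + q * n) := by
    intro n r q hn hr
    induction q with
    | zero => simp
    | succ q ih =>
      have h1 := hsup (r + q * n) n (by omega) hn
      have e : r + (q + 1) * n = r + q * n + n := by ring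
      rw [e]
      push_cast
      linarith
  have low : ∀ (n N : ℕ), 1 ≤ n → 1 ≤ N → β n - (K * n + |β n| * n) / N ≤ b N / N := by
    intro n N hn hN
    have hn' : (0 : ℝ) < n := by exact_mod_cast hn
    have hN' : (0 : ℝ) < N := by exact_mod_cast hN
    obtain ⟨N', rfl⟩ : ∃ N', N = N' + 1 := ⟨N - 1, by omega⟩
    have hdm := Nat.div_add_mod N' n
    have hmod := Nat.mod_lt N' hn
    set q := N' / n with hq
    set r := N' % n + 1 with hr
    have hNe : N' + 1 = r + q * n := by rw [hr]; nlinarith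
    have h1 := iter n r q hn (by omega)
    rw [← hNe] at h1
    have hbn : b n - D n = β n * n := by
      rw [hβ]; simp only; field_simp
    rw [hbn] at h1
    have hrn : (r : ℝ) ≤ n := by exact_mod_cast (by omega : r ≤ n)
    have hr0 : (0 : ℝ) ≤ r := Nat.cast_nonneg r
    have h2 := (abs_le.1 (hK r)).1
    have h3 : K * r ≤ K * n := mul_le_mul_of_nonneg_left hrn hK0
    have hNq : ((N' + 1 : ℕ) : ℝ) = r + q * n := by rw [hNe]; push_cast; ring
    have h4 : β n * r ≤ |β n| * n :=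
      (mul_le_mul_of_nonneg_right (le_abs_self _) hr0).trans
        (mul_le_mul_of_nonneg_left hrn (abs_nonneg _))
    rw [le_div_iff₀ hN', sub_mul, div_mul_cancel₀ _ hN'.ne']
    have h5 : β n * ((N' + 1 : ℕ) : ℝ) = β n * r + q * (β n * n) := by rw [hNq]; ring
    rw [h5]
    linarith
  refine ⟨sSup S, tendsto_order.2 ⟨fun a ha => ?_, fun a ha => ?_⟩,
    fun n hn => le_csSup hSb ⟨n, hn, rfl⟩⟩
  · obtain ⟨_, ⟨n, hn, rfl⟩, hlt⟩ := exists_lt_of_lt_csSup hSne ha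
    have hn1 : 1 ≤ n := hn
    have hlim : Tendsto (fun N : ℕ => β n - (K * n + |β n| * n) / N) atTop (𝓝 (β n - 0)) :=
      tendsto_const_nhds.sub (tendsto_const_div_atTop_nhds_zero_nat _)
    rw [sub_zero] at hlim
    have h1 := (tendsto_order.1 hlim).1 a hlt
    filter_upwards [h1, eventually_ge_atTop 1] with N h2 h3
    exact h2.trans_le (low n N hn1 h3)
  · have h1 := (tendsto_order.1 hD).2 (a - sSup S) (by linarith)
    filter_upwards [h1, eventually_ge_atTop 1] with N h2 h3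
    have hN' : (0 : ℝ) < N := by exact_mod_cast h3
    have h4 : β N ≤ sSup S := le_csSup hSb ⟨N, h3, rfl⟩
    have h5 : b N / N = β N + D N / N := by rw [hβ]; simp only; field_simp; ring
    rw [h5]
    linarith

variable {f : ℝ → ℝ} {c : ℝ} {ν : Measure ℝ} [IsFiniteMeasure ν]

theorem AA_fin_super (h : Hyp f c ν) (m n M : ℕ) (hm : 1 ≤ m) (hn : 1 ≤ n) :
    bin ((m : ℝ) / (m + n)) ((n : ℝ) / (m + n)) M (fun i j => AA f (Fin m) i + AA f (Fin n) j)
      ≤ AA f (Fin (m + n)) M := by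
  obtain ⟨B, hB⟩ := h.bdd
  have h1 := AA_super (V := Fin m) (W := Fin n) h (by rw [Fintype.card_fin]; exact hm) (by rw [Fintype.card_fin]; exact hn) M
  rw [AA_equiv h.cont hB finSumFinEquiv M] at h1
  simpa using h1

omit [IsFiniteMeasure ν] in
theorem AA_zero (V : Type*) [Fintype V] [DecidableEq V] : AA f V 0 = 0 := by
  unfold AA Lam
  simp

/-- The mean log-partition function with pattern density `α`. -/
noncomputable def bb (f : ℝ → ℝ) (α : ℝ) (N : ℕ) : ℝ := AA f (Fin N) ⌊α * N⌋₊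

theorem bb_bound (h : Hyp f c ν) {B : ℝ} (hB : ∀ s, |f s| ≤ B) {α : ℝ} (hα : 0 ≤ α) (N : ℕ) :
    |bb f α N| ≤ B * α * N := by
  have hB0 : 0 ≤ B := (abs_nonneg _).trans (hB 0)
  have h1 := T_iter_near' h.cont hB (Lam_lip (V := Fin N))
    (fun _ : Fin N => 1 / √(Fintype.card (Fin N) : ℝ)) ⌊α * N⌋₊ 0 (fun _ => 0)
  have h2 : (T f (fun _ : Fin N => 1 / √(Fintype.card (Fin N) : ℝ)))^[0] (Lam (Fin N))
      (fun _ => 0) = 0 := AA_zero (f := f) (Fin N)
  rw [h2, sub_zero] at h1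
  refine h1.trans ?_
  have h3 : (⌊α * N⌋₊ : ℝ) ≤ α * N := Nat.floor_le (by positivity)
  rw [Nat.cast_zero, sub_zero, abs_of_nonneg (Nat.cast_nonneg _), mul_assoc]
  exact mul_le_mul_of_nonneg_left h3 hB0

theorem bb_super (h : Hyp f c ν) {B : ℝ} (hB : ∀ s, |f s| ≤ B) {α : ℝ} (hα : 0 ≤ α)
    (m n : ℕ) (hm : 1 ≤ m) (hn : 1 ≤ n) :
    bb f α m + bb f α n - 2 * B * √(1 + α * n) ≤ bb f α (m + n) := by
  have hB0 : 0 ≤ B := (abs_nonneg _).trans (hB 0)
  have hm' : (0 : ℝ) < m := by exact_mod_cast hm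
  have hn' : (0 : ℝ) < n := by exact_mod_cast hn
  set M := ⌊α * ((m + n : ℕ) : ℝ)⌋₊ with hM
  set m1 := ⌊α * (m : ℝ)⌋₊ with hm1
  set n1 := ⌊α * (n : ℝ)⌋₊ with hn1
  set k1 : ℝ := (m : ℝ) / (m + n) with hk1
  set k2 : ℝ := (n : ℝ) / (m + n) with hk2
  have h1 : 0 ≤ k1 := by positivity
  have h2 : 0 ≤ k2 := by positivity
  have h12 : k1 + k2 = 1 := by
    rw [hk1, hk2, ← add_div, div_self (by positivity)]
  set Q : ℝ := 1 + α * n with hQ
  have hQ0 : 0 < Q := by positivity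
  have hsQ : 0 < √Q := Real.sqrt_pos.2 hQ0
  have hsQ2 : √Q * √Q = Q := Real.mul_self_sqrt hQ0.le
  -- the pointwise lower bound
  have hpt : ∀ i j : ℕ, (AA f (Fin m) m1 + AA f (Fin n) n1 - B * √Q)
      + (-(B / (2 * √Q))) * (((i : ℝ) + (-(m1 : ℝ))) ^ 2 + ((j : ℝ) + (-(n1 : ℝ))) ^ 2)
      ≤ AA f (Fin m) i + AA f (Fin n) j := by
    intro i j
    have e1 := (abs_le.1 (T_iter_near' h.cont hB (Lam_lip (V := Fin m))
      (fun _ : Fin m => 1 / √(Fintype.card (Fin m) : ℝ)) i m1 (fun _ => 0))).1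
    have e2 := (abs_le.1 (T_iter_near' h.cont hB (Lam_lip (V := Fin n))
      (fun _ : Fin n => 1 / √(Fintype.card (Fin n) : ℝ)) j n1 (fun _ => 0))).1
    have e1' : -(B * |(i : ℝ) - m1|) ≤ AA f (Fin m) i - AA f (Fin m) m1 := e1
    have e2' : -(B * |(j : ℝ) - n1|) ≤ AA f (Fin n) j - AA f (Fin n) n1 := e2
    have amgm : ∀ t : ℝ, |t| ≤ √Q / 2 + (1 / (2 * √Q)) * t ^ 2 := by
      intro t
      have h3 : √Q / 2 + (1 / (2 * √Q)) * t ^ 2 = (√Q * √Q + t ^ 2) / (2 * √Q) := by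
        field_simp
      rw [h3, le_div_iff₀ (by positivity)]
      have h4 : t ^ 2 = |t| ^ 2 := (sq_abs t).symm
      rw [h4]
      nlinarith [sq_nonneg (√Q - |t|)]
    have f1 := mul_le_mul_of_nonneg_left (amgm ((i : ℝ) - m1)) hB0
    have f2 := mul_le_mul_of_nonneg_left (amgm ((j : ℝ) - n1)) hB0
    have g1 : B * (√Q / 2 + 1 / (2 * √Q) * ((i : ℝ) - m1) ^ 2)
        = B * √Q / 2 + (B / (2 * √Q)) * ((i : ℝ) + (-(m1 : ℝ))) ^ 2 := by
      rw [← sub_eq_add_neg]; ring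
    have g2 : B * (√Q / 2 + 1 / (2 * √Q) * ((j : ℝ) - n1) ^ 2)
        = B * √Q / 2 + (B / (2 * √Q)) * ((j : ℝ) + (-(n1 : ℝ))) ^ 2 := by
      rw [← sub_eq_add_neg]; ring
    rw [g1] at f1
    rw [g2] at f2
    have g3 : -(B / (2 * √Q)) * (((i : ℝ) + (-(m1 : ℝ))) ^ 2 + ((j : ℝ) + (-(n1 : ℝ))) ^ 2)
        = -((B / (2 * √Q)) * ((i : ℝ) + (-(m1 : ℝ))) ^ 2)
          - (B / (2 * √Q)) * ((j : ℝ) + (-(n1 : ℝ))) ^ 2 := by ring
    rw [g3]
    linarith
  have hbin := bin_mono h1 h2 M hpt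
  have hbin2 := bin_lin (k1 := k1) (k2 := k2) M
    (fun _ _ => (AA f (Fin m) m1 + AA f (Fin n) n1 - B * √Q))
    (fun i j => ((i : ℝ) + (-(m1 : ℝ))) ^ 2 + ((j : ℝ) + (-(n1 : ℝ))) ^ 2) 1 (-(B / (2 * √Q)))
  simp only [one_mul] at hbin2
  rw [hbin2, bin_const h12] at hbin
  have hbin3 := bin_lin (k1 := k1) (k2 := k2) M
    (fun i _ => ((i : ℝ) + (-(m1 : ℝ))) ^ 2) (fun _ j => ((j : ℝ) + (-(n1 : ℝ))) ^ 2) 1 1
  simp only [one_mul] at hbin3
  rw [hbin3, bin_sq1 h12, bin_sq2 h12] at hbin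
  have hsup := AA_fin_super h m n M hm hn
  have hfin : AA f (Fin m) m1 + AA f (Fin n) n1 - B * √Q
      + -(B / (2 * √Q)) * ((M * k1 + -(m1 : ℝ)) ^ 2 + M * (k1 * k2)
        + ((M * k2 + -(n1 : ℝ)) ^ 2 + M * (k1 * k2))) ≤ AA f (Fin (m + n)) M := hbin.trans hsup
  -- numeric estimates
  have hαmn : 0 ≤ α * ((m + n : ℕ) : ℝ) := by positivity
  have hcast : ((m + n : ℕ) : ℝ) = (m : ℝ) + n := by push_cast; rfl
  have hMu : (M : ℝ) ≤ α * (m + n) := by
    rw [← hcast]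
    exact Nat.floor_le hαmn
  have hMl : α * (m + n) - 1 < M := by
    rw [← hcast]
    exact Nat.sub_one_lt_floor (α * ((m + n : ℕ) : ℝ))
  have hm1u : (m1 : ℝ) ≤ α * m := Nat.floor_le (by positivity)
  have hm1l : α * m - 1 < m1 := Nat.sub_one_lt_floor _
  have hn1u : (n1 : ℝ) ≤ α * n := Nat.floor_le (by positivity)
  have hn1l : α * n - 1 < n1 := Nat.sub_one_lt_floor _
  have hk1m : k1 * (m + n) = m := by rw [hk1]; field_simp
  have hk2n : k2 * (m + n) = n := by rw [hk2]; field_simp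
  have hk1le : k1 ≤ 1 := by linarith
  have hk2le : k2 ≤ 1 := by linarith
  have hMk1u : M * k1 ≤ α * m := by
    have := mul_le_mul_of_nonneg_right hMu h1
    calc (M : ℝ) * k1 ≤ α * (m + n) * k1 := this
      _ = α * (k1 * (m + n)) := by ring
      _ = α * m := by rw [hk1m]
  have hMk1l : α * m - 1 ≤ M * k1 := by
    have := mul_le_mul_of_nonneg_right hMl.le h1
    have e : (α * (m + n) - 1) * k1 = α * (k1 * (m + n)) - k1 := by ring
    rw [e, hk1m] at this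
    linarith
  have hMk2u : M * k2 ≤ α * n := by
    have := mul_le_mul_of_nonneg_right hMu h2
    calc (M : ℝ) * k2 ≤ α * (m + n) * k2 := this
      _ = α * (k2 * (m + n)) := by ring
      _ = α * n := by rw [hk2n]
  have hMk2l : α * n - 1 ≤ M * k2 := by
    have := mul_le_mul_of_nonneg_right hMl.le h2
    have e : (α * (m + n) - 1) * k2 = α * (k2 * (m + n)) - k2 := by ring
    rw [e, hk2n] at this
    linarith
  have hs1 : (M * k1 + -(m1 : ℝ)) ^ 2 ≤ 1 := by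
    rw [sq_le_one_iff_abs_le_one, abs_le]
    constructor <;> linarith
  have hs2 : (M * k2 + -(n1 : ℝ)) ^ 2 ≤ 1 := by
    rw [sq_le_one_iff_abs_le_one, abs_le]
    constructor <;> linarith
  have hs3 : M * (k1 * k2) ≤ α * n := by
    have h3 : (M : ℝ) * (k1 * k2) = (M * k2) * k1 := by ring
    rw [h3]
    have h4 : (M : ℝ) * k2 * k1 ≤ M * k2 * 1 := mul_le_mul_of_nonneg_left hk1le (by positivity)
    linarith
  have htot : (M * k1 + -(m1 : ℝ)) ^ 2 + M * (k1 * k2)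
        + ((M * k2 + -(n1 : ℝ)) ^ 2 + M * (k1 * k2)) ≤ 2 * Q := by
    rw [hQ]; linarith
  have hlast : (B / (2 * √Q)) * ((M * k1 + -(m1 : ℝ)) ^ 2 + M * (k1 * k2)
        + ((M * k2 + -(n1 : ℝ)) ^ 2 + M * (k1 * k2))) ≤ B * √Q := by
    calc _ ≤ (B / (2 * √Q)) * (2 * Q) := mul_le_mul_of_nonneg_left htot (by positivity)
      _ = B * Q / √Q := by field_simp
      _ = B * √Q := by
        rw [div_eq_iff hsQ.ne', mul_assoc, hsQ2]
  have hres : bb f α (m + n) = AA f (Fin (m + n)) M := rfl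
  rw [hres]
  have hres1 : bb f α m = AA f (Fin m) m1 := rfl
  have hres2 : bb f α n = AA f (Fin n) n1 := rfl
  rw [hres1, hres2]
  linarith

/-- Convergence of the normalised mean log-partition function. -/
theorem bb_tendsto (h : Hyp f c ν) {B : ℝ} (hB : ∀ s, |f s| ≤ B) {α : ℝ} (hα : 0 ≤ α) :
    ∃ L : ℝ, Tendsto (fun N : ℕ => bb f α N / N) atTop (𝓝 L) ∧
      ∀ n : ℕ, 1 ≤ n → (bb f α n - 2 * B * √(1 + α * n)) / n ≤ L := by
  have hB0 : 0 ≤ B := (abs_nonneg _).trans (hB 0)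
  refine tendsto_of_almost_super (bb f α) (fun n => 2 * B * √(1 + α * n)) (B * α)
    (fun m n hm hn => bb_super h hB hα m n hm hn) ?_ (fun n => by positivity)
    (fun n => bb_bound h hB hα n)
  -- `√(1 + α n) / n → 0`
  have h1 : Tendsto (fun n : ℕ => √(1 / (n : ℝ) * (1 / n) + α * (1 / n))) atTop (𝓝 0) := by
    have h2 : Tendsto (fun n : ℕ => (1 : ℝ) / n) atTop (𝓝 0) := tendsto_const_div_atTop_nhds_zero_nat 1
    have h3 : Tendsto (fun n : ℕ => 1 / (n : ℝ) * (1 / n) + α * (1 / n)) atTop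
        (𝓝 (0 * 0 + α * 0)) := (h2.mul h2).add (h2.const_mul α)
    have h4 := h3.sqrt
    simpa using h4
  have h5 := h1.const_mul (2 * B)
  rw [mul_zero] at h5
  refine h5.congr' ?_
  filter_upwards [eventually_ge_atTop 1] with n hn
  have hn' : (0 : ℝ) < n := by exact_mod_cast hn
  have e : 1 / (n : ℝ) * (1 / n) + α * (1 / n) = (1 + α * n) / (n : ℝ) ^ 2 := by
    field_simp
  rw [e, Real.sqrt_div' _ (by positivity), Real.sqrt_sq hn'.le]
  ring

end Vale.Agent.P157
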