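import Mathlib

/-! P157: the pressure of the Ising perceptron. -/

open MeasureTheory ProbabilityTheory
open scoped BigOperators

namespace Vale.Agent.P157

/-- The pressure `p_N(f)` of the Ising perceptron with `M` patterns `g 0, …, g (M - 1)` in `ℝ^N`.
The function `x : Fin N → Bool` codes the point of `{-1, 1}^N` whose coordinate `i` is `1` if
`x i = true` and `-1` otherwise; the average over all `x` is the integral against the uniform
probability measure on the cube. -/
noncomputable def pressure (f : ℝ → ℝ) (N M : ℕ) (g : Fin M → Fin N → ℝ) : ℝ :=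
  1 / N * Real.log (1 / 2 ^ N * ∑ x : Fin N → Bool,
    Real.exp (∑ a, f ((∑ i, g a i * (if x i then 1 else -1)) / √N)))

/-- The mean pressure `𝔼 p_N(f)` at pattern density `α`: there are `⌊α N⌋` patterns, and they are
independent standard Gaussian vectors in `ℝ^N`. -/
noncomputable def meanPressure (f : ℝ → ℝ) (α : ℝ) (N : ℕ) : ℝ :=
  ∫ g, pressure f N ⌊α * N⌋₊ g
    ∂(Measure.pi fun _ : Fin ⌊α * N⌋₊ => Measure.pi fun _ : Fin N => gaussianReal 0 1)

end Vale.Agent.P157
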