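import Vale.Agent.P157.Limit
import Vale.Agent.P157.Model

/-! P157, part 6: the mean pressure is the iterated pattern operator. -/

open MeasureTheory ProbabilityTheory Real Filter
open scoped BigOperators Topology

namespace Vale.Agent.P157

section

variable {V : Type*} [Fintype V] [DecidableEq V] {f : ℝ → ℝ} {B : ℝ}

theorem iter_cont (hf : Continuous f) (a : V → ℝ) (M : ℕ) (u : (V → Bool) → ℝ) :
    Continuous (fun g : Fin M → V → ℝ => Lam V (fun x => u x + ∑ k, f (fld a (g k) x))) := by
  refine Lam_lip.continuous.comp (continuous_pi fun x => ?_)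
  refine continuous_const.add (continuous_finset_sum _ fun k _ => ?_)
  exact hf.comp ((fld_cont a x).comp (continuous_apply k))

theorem iter_bdd (hB : ∀ s, |f s| ≤ B) (a : V → ℝ) (M : ℕ)
    (u : (V → Bool) → ℝ) (g : Fin M → V → ℝ) :
    |Lam V (fun x => u x + ∑ k, f (fld a (g k) x))| ≤ |Lam V u| + M * B := by
  have hB0 : 0 ≤ B := (abs_nonneg _).trans (hB 0)
  have h1 : |Lam V (fun x => u x + ∑ k, f (fld a (g k) x)) - Lam V u| ≤ M * B := by
    refine lip_apply Lam_lip (by positivity) fun x => ?_
    rw [add_sub_cancel_left]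
    refine (Finset.abs_sum_le_sum_abs _ _).trans ?_
    calc ∑ k, |f (fld a (g k) x)| ≤ ∑ _k : Fin M, B := Finset.sum_le_sum fun k _ => hB _
      _ = M * B := by simp
  have h2 := abs_sub_abs_le_abs_sub (Lam V (fun x => u x + ∑ k, f (fld a (g k) x))) (Lam V u)
  linarith

theorem iter_eq (hf : Continuous f) (hB : ∀ s, |f s| ≤ B) (a : V → ℝ) (M : ℕ)
    (u : (V → Bool) → ℝ) :
    ∫ g : Fin M → V → ℝ, Lam V (fun x => u x + ∑ k, f (fld a (g k) x))
      ∂(Measure.pi fun _ : Fin M => gam V) = (T f a)^[M] (Lam V) u := by
  induction M generalizing u with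
  | zero =>
    simp
  | succ M ih =>
    rw [Function.iterate_succ_apply']
    have mp := measurePreserving_piFinSuccAbove (fun _ : Fin (M + 1) => gam V) 0
    have hTdef : T f a ((T f a)^[M] (Lam V)) u
        = ∫ g, (T f a)^[M] (Lam V) (fun x => u x + f (fld a g x)) ∂(gam V) := rfl
    rw [hTdef, ← mp.symm.integral_comp', integral_prod]
    · refine integral_congr_ae (Eventually.of_forall fun g0 => ?_)
      simp only
      rw [← ih]
      refine integral_congr_ae (Eventually.of_forall fun g => ?_)
      simp only
      congr 1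
      funext x
      rw [Fin.sum_univ_succ]
      simp only [MeasurableEquiv.piFinSuccAbove_symm_apply, Fin.insertNthEquiv_apply,
        Fin.insertNth_zero', Fin.cons_zero, Fin.cons_succ]
      ring
    · have hc := (iter_cont (V := V) hf a (M + 1) u)
      have hint : Integrable (fun g : Fin (M + 1) → V → ℝ =>
          Lam V (fun x => u x + ∑ k, f (fld a (g k) x))) (Measure.pi fun _ : Fin (M + 1) => gam V) := by
        refine Integrable.of_bound hc.aestronglyMeasurable (|Lam V u| + (M + 1 : ℕ) * B)
          (Eventually.of_forall fun g => ?_)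
        rw [Real.norm_eq_abs]
        exact iter_bdd hB a (M + 1) u g
      exact (mp.symm.integrable_comp_emb (MeasurableEquiv.measurableEmbedding _)).2 hint

end

theorem mean_eq {f : ℝ → ℝ} {B : ℝ} (hf : Continuous f) (hB : ∀ s, |f s| ≤ B) (α : ℝ) (N : ℕ) :
    meanPressure f α N = bb f α N / N := by
  unfold meanPressure bb AA
  rw [← iter_eq hf hB, div_eq_mul_one_div, mul_comm _ (1 / (N : ℝ)), ← integral_const_mul]
  refine integral_congr_ae (Eventually.of_forall fun g => ?_)
  simp only
  unfold pressure Lam
  rw [Fintype.card_fin]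
  congr 3
  refine Finset.sum_congr rfl fun x _ => ?_
  beta_reduce
  rw [zero_add]
  congr 1
  refine Finset.sum_congr rfl fun a _ => ?_
  congr 1
  unfold fld spin
  rw [Finset.sum_div]
  refine Finset.sum_congr rfl fun i _ => ?_
  ring

end Vale.Agent.P157
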