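import Vale.Agent.P157.Op

/-! P157, part 3: the one-step inequality for `exp f = c - (positive definite)`. -/

open MeasureTheory ProbabilityTheory Real Filter
open scoped BigOperators Topology

namespace Vale.Agent.P157

section pd

variable {V : Type*} [Fintype V]

theorem IsPD.continuous {X : (V → ℝ) → ℝ} (hX : IsPD X) : Continuous X := by
  obtain ⟨Λ, h, hΛ⟩ := hX
  have e : X = fun t => ∫ u, Real.cos (∑ v, t v * u v) ∂Λ := funext hΛ
  rw [e]
  refine continuous_of_dominated (bound := fun _ => 1) ?_ ?_ ?_ ?_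
  · exact fun t => (cos_cont t).aestronglyMeasurable
  · exact fun t => Eventually.of_forall fun u => by
      rw [Real.norm_eq_abs]; exact Real.abs_cos_le_one _
  · exact integrable_const _
  · exact Eventually.of_forall fun u => by fun_prop

theorem bdd_int {F : (V → ℝ) → ℝ} (hF : Continuous F) {C : ℝ} (hC : ∀ g, |F g| ≤ C) :
    Integrable F (gam V) :=
  Integrable.of_bound hF.aestronglyMeasurable C (Eventually.of_forall fun g => by
    rw [Real.norm_eq_abs]; exact hC g)

/-- Truncated logarithmic series. -/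
noncomputable def Sn (c : ℝ) (n : ℕ) (y : ℝ) : ℝ :=
  ∑ k ∈ Finset.range n, (y / c) ^ (k + 1) / ((k : ℝ) + 1)

theorem Sn_pd {X : (V → ℝ) → ℝ} (hX : IsPD X) {c : ℝ} (hc : 0 < c) (n : ℕ) :
    IsPD (fun t => Sn c n (X t)) := by
  unfold Sn
  refine IsPD.sum (Finset.range n) (fun k t => (X t / c) ^ (k + 1) / ((k : ℝ) + 1)) fun k _ => ?_
  have h := (hX.pow (k + 1)).smul (a := 1 / (c ^ (k + 1) * ((k : ℝ) + 1))) (by positivity)
  convert h using 2 with t
  rw [div_pow]
  field_simp

theorem Sn_near {c v y : ℝ} (hc : v < c) (hv : 0 ≤ v) (hy : |y| ≤ v) (n : ℕ) :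
    |Real.log (c - y) - (Real.log c - Sn c n y)| ≤ (v / c) ^ (n + 1) / (1 - v / c) := by
  have hc0 : 0 < c := lt_of_le_of_lt hv hc
  have hyc : |y / c| ≤ v / c := by
    rw [abs_div, abs_of_pos hc0]
    exact div_le_div_of_nonneg_right hy hc0.le
  have hvc : v / c < 1 := (div_lt_one hc0).2 hc
  have h1 : |y / c| < 1 := lt_of_le_of_lt hyc hvc
  have h2 := Real.abs_log_sub_add_sum_range_le h1 n
  have h3 : Real.log (c - y) = Real.log c + Real.log (1 - y / c) := by
    rw [← Real.log_mul hc0.ne' (by have := (abs_lt.1 h1).2; linarith)]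
    congr 1
    field_simp
  have h4 : Real.log (c - y) - (Real.log c - Sn c n y) = Sn c n y + Real.log (1 - y / c) := by
    rw [h3]; ring
  rw [h4]
  refine h2.trans ?_
  have h5 : (0 : ℝ) < 1 - v / c := by linarith
  have h6 : (0 : ℝ) < 1 - |y / c| := by linarith
  refine div_le_div₀ (by positivity) ?_ h5 (by linarith)
  exact pow_le_pow_left₀ (abs_nonneg _) hyc _

theorem Sn_cont (c : ℝ) (n : ℕ) : Continuous (Sn c n) := by
  unfold Sn; fun_prop

theorem Sn_bdd {c v y : ℝ} (hc : v < c) (hv : 0 ≤ v) (hy : |y| ≤ v) (n : ℕ) :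
    |Sn c n y| ≤ n := by
  have hc0 : 0 < c := lt_of_le_of_lt hv hc
  have hyc : |y / c| ≤ v / c := by
    rw [abs_div, abs_of_pos hc0]
    exact div_le_div_of_nonneg_right hy hc0.le
  have hvc : v / c < 1 := (div_lt_one hc0).2 hc
  unfold Sn
  refine (Finset.abs_sum_le_sum_abs _ _).trans ?_
  calc ∑ k ∈ Finset.range n, |(y / c) ^ (k + 1) / ((k : ℝ) + 1)|
      ≤ ∑ k ∈ Finset.range n, (1 : ℝ) := by
        refine Finset.sum_le_sum fun k _ => ?_
        rw [abs_div, abs_pow]
        have h1 : |y / c| ^ (k + 1) ≤ 1 := pow_le_one₀ (abs_nonneg _) (by linarith)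
        have h2 : (1 : ℝ) ≤ |(k : ℝ) + 1| := by
          rw [abs_of_nonneg (by positivity)]
          have : (0 : ℝ) ≤ k := Nat.cast_nonneg k
          linarith
        rw [div_le_one (by linarith)]
        linarith
    _ = n := by simp

theorem log_near {X : (V → ℝ) → ℝ} (hX : IsPD X) {c v : ℝ} (hc : v < c) (hv : 0 ≤ v)
    (hXv : ∀ t, |X t| ≤ v) (b : V → ℝ) (n : ℕ) :
    |∫ g, Real.log (c - X (fun i => b i * g i)) ∂(gam V)
      - (Real.log c - ∫ g, Sn c n (X (fun i => b i * g i)) ∂(gam V))|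
      ≤ (v / c) ^ (n + 1) / (1 - v / c) := by
  have hc0 : 0 < c := lt_of_le_of_lt hv hc
  have hXc : Continuous (fun g : V → ℝ => X (fun i => b i * g i)) :=
    hX.continuous.comp (by fun_prop)
  have hpos : ∀ t, 0 < c - X t := fun t => by have := (abs_le.1 (hXv t)).2; linarith
  have i1 : Integrable (fun g : V → ℝ => Sn c n (X (fun i => b i * g i))) (gam V) :=
    bdd_int ((Sn_cont c n).comp hXc) (C := n) fun g => Sn_bdd hc hv (hXv _) n
  have i2 : Integrable (fun g : V → ℝ => Real.log (c - X (fun i => b i * g i))) (gam V) := by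
    refine bdd_int (Continuous.log (continuous_const.sub hXc) fun g => (hpos _).ne')
      (C := |Real.log c| + (n + (v / c) ^ (n + 1) / (1 - v / c))) fun g => ?_
    have h1 := Sn_near hc hv (hXv (fun i => b i * g i)) n
    have h2 := Sn_bdd hc hv (hXv (fun i => b i * g i)) n
    have h3 := abs_sub_abs_le_abs_sub (Real.log (c - X (fun i => b i * g i)))
      (Real.log c - Sn c n (X (fun i => b i * g i)))
    have h4 := abs_sub (Real.log c) (Sn c n (X (fun i => b i * g i)))
    linarith
  have e : Real.log c - ∫ g, Sn c n (X (fun i => b i * g i)) ∂(gam V)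
      = ∫ g, (Real.log c - Sn c n (X (fun i => b i * g i))) ∂(gam V) := by
    rw [integral_sub (integrable_const _) i1]; simp
  have i3 : Integrable (fun g : V → ℝ => Real.log c - Sn c n (X (fun i => b i * g i))) (gam V) :=
    (integrable_const _).sub i1
  rw [e, ← integral_sub i2 i3]
  have h1 : ∀ g : V → ℝ, ‖Real.log (c - X (fun i => b i * g i))
      - (Real.log c - Sn c n (X (fun i => b i * g i)))‖ ≤ (v / c) ^ (n + 1) / (1 - v / c) :=
    fun g => by rw [Real.norm_eq_abs]; exact Sn_near hc hv (hXv _) n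
  have h2 := norm_integral_le_of_norm_le_const (μ := gam V) (Eventually.of_forall h1)
  simpa using h2

/-- The logarithmic inequality. -/
theorem log_ineq {X : (V → ℝ) → ℝ} (hX : IsPD X) {c v : ℝ} (hc : v < c) (hv : 0 ≤ v)
    (hXv : ∀ t, |X t| ≤ v) {a a1 a2 : V → ℝ} {k1 k2 : ℝ}
    (h1 : 0 ≤ k1) (h2 : 0 ≤ k2) (h12 : k1 + k2 = 1)
    (ha : ∀ v, a v ^ 2 = k1 * a1 v ^ 2 + k2 * a2 v ^ 2) :
    k1 * ∫ g, Real.log (c - X (fun i => a1 i * g i)) ∂(gam V)
      + k2 * ∫ g, Real.log (c - X (fun i => a2 i * g i)) ∂(gam V)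
      ≤ ∫ g, Real.log (c - X (fun i => a i * g i)) ∂(gam V) := by
  have hc0 : 0 < c := lt_of_le_of_lt hv hc
  have hvc : v / c < 1 := (div_lt_one hc0).2 hc
  have hvc0 : 0 ≤ v / c := by positivity
  set L := ∫ g, Real.log (c - X (fun i => a i * g i)) ∂(gam V) with hL
  set L1 := ∫ g, Real.log (c - X (fun i => a1 i * g i)) ∂(gam V) with hL1
  set L2 := ∫ g, Real.log (c - X (fun i => a2 i * g i)) ∂(gam V) with hL2
  have hstep : ∀ n : ℕ, 0 ≤ (L - (k1 * L1 + k2 * L2))
      + 2 * ((v / c) ^ (n + 1) / (1 - v / c)) := by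
    intro n
    have e0 := log_near hX hc hv hXv a n
    have e1 := log_near hX hc hv hXv a1 n
    have e2 := log_near hX hc hv hXv a2 n
    have hp := (Sn_pd hX hc0 n).gauss_le h1 h2 h12 ha
    beta_reduce at hp
    rw [← hL] at e0
    rw [← hL1] at e1
    rw [← hL2] at e2
    set E := (v / c) ^ (n + 1) / (1 - v / c)
    set P := ∫ g, Sn c n (X (fun i => a i * g i)) ∂(gam V)
    set P1 := ∫ g, Sn c n (X (fun i => a1 i * g i)) ∂(gam V)
    set P2 := ∫ g, Sn c n (X (fun i => a2 i * g i)) ∂(gam V)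
    have a0 := (abs_le.1 e0).1
    have a1' := mul_le_mul_of_nonneg_left (abs_le.1 e1).2 h1
    have a2' := mul_le_mul_of_nonneg_left (abs_le.1 e2).2 h2
    have h3 : k1 * E + k2 * E = E := by rw [← add_mul, h12, one_mul]
    have h4 : k1 * Real.log c + k2 * Real.log c = Real.log c := by rw [← add_mul, h12, one_mul]
    nlinarith
  have hlim : Tendsto (fun n : ℕ => (L - (k1 * L1 + k2 * L2))
      + 2 * ((v / c) ^ (n + 1) / (1 - v / c))) atTop (𝓝 ((L - (k1 * L1 + k2 * L2)) + 2 * (0 / (1 - v / c)))) := by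
    refine tendsto_const_nhds.add (Tendsto.const_mul _ (Tendsto.div_const ?_ _))
    exact (tendsto_pow_atTop_nhds_zero_of_lt_one hvc0 hvc).comp (tendsto_add_atTop_nat 1)
  have := ge_of_tendsto' hlim hstep
  simp only [zero_div, mul_zero, add_zero] at this
  linarith

end pd

/-- The hypothesis on the potential: `exp f = c - ∫ cos (l s) dν(l)`. -/
def Hyp (f : ℝ → ℝ) (c : ℝ) (ν : Measure ℝ) : Prop :=
  ∀ s, Real.exp (f s) = c - ∫ l, Real.cos (l * s) ∂ν

section hyp

variable {f : ℝ → ℝ} {c : ℝ} {ν : Measure ℝ} [IsFiniteMeasure ν]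

theorem phi_bdd (ν : Measure ℝ) [IsFiniteMeasure ν] (s : ℝ) :
    |∫ l, Real.cos (l * s) ∂ν| ≤ ν.real Set.univ := by
  have h1 : ∀ l, ‖Real.cos (l * s)‖ ≤ 1 := fun l => by
    rw [Real.norm_eq_abs]; exact Real.abs_cos_le_one _
  have h2 := norm_integral_le_of_norm_le_const (μ := ν) (Eventually.of_forall h1)
  simpa using h2

theorem phi_cont (ν : Measure ℝ) [IsFiniteMeasure ν] :
    Continuous (fun s => ∫ l, Real.cos (l * s) ∂ν) := by
  refine continuous_of_dominated (bound := fun _ => 1) ?_ ?_ ?_ ?_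
  · intro s
    refine Continuous.aestronglyMeasurable ?_
    fun_prop
  · exact fun t => Eventually.of_forall fun u => by
      rw [Real.norm_eq_abs]; exact Real.abs_cos_le_one _
  · exact integrable_const _
  · exact Eventually.of_forall fun u => by fun_prop

omit [IsFiniteMeasure ν] in
theorem Hyp.lt (h : Hyp f c ν) : ν.real Set.univ < c := by
  have h0 := h 0
  simp only [mul_zero, Real.cos_zero, integral_const, smul_eq_mul, mul_one] at h0
  have := Real.exp_pos (f 0)
  linarith

theorem Hyp.cont (h : Hyp f c ν) : Continuous f := by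
  have e : f = fun s => Real.log (c - ∫ l, Real.cos (l * s) ∂ν) := by
    funext s
    rw [← h s, Real.log_exp]
  rw [e]
  refine Continuous.log (continuous_const.sub (phi_cont ν)) fun s => ?_
  rw [← h s]
  exact (Real.exp_pos _).ne'

theorem Hyp.bdd (h : Hyp f c ν) : ∃ B : ℝ, ∀ s, |f s| ≤ B := by
  refine ⟨max (Real.log (c + ν.real Set.univ)) (-Real.log (c - ν.real Set.univ)), fun s => ?_⟩
  have h1 := abs_le.1 (phi_bdd ν s)
  have h2 := h.lt
  have h3 := h s
  have h4 : f s = Real.log (c - ∫ l, Real.cos (l * s) ∂ν) := by rw [← h s, Real.log_exp]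
  have h5 : Real.log (c - ν.real Set.univ) ≤ f s := by
    rw [h4]; exact Real.log_le_log (by linarith) (by linarith)
  have h6 : f s ≤ Real.log (c + ν.real Set.univ) := by
    rw [h4]
    refine Real.log_le_log ?_ (by linarith)
    linarith
  rw [abs_le]
  constructor
  · have := le_max_right (Real.log (c + ν.real Set.univ)) (-Real.log (c - ν.real Set.univ))
    linarith
  · exact h6.trans (le_max_left _ _)

variable {V : Type*} [Fintype V] [DecidableEq V]

/-- The one-step inequality. -/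
theorem Hyp.one_step (h : Hyp f c ν) {a a1 a2 : V → ℝ} {k1 k2 : ℝ}
    (h1 : 0 ≤ k1) (h2 : 0 ≤ k2) (h12 : k1 + k2 = 1)
    (ha : ∀ v, a v ^ 2 = k1 * a1 v ^ 2 + k2 * a2 v ^ 2) (u : (V → Bool) → ℝ) :
    R f k1 k2 a1 a2 (Lam V) u ≤ T f a (Lam V) u := by
  classical
  set φ : ℝ → ℝ := fun s => ∫ l, Real.cos (l * s) ∂ν with hφ
  set S : ℝ := ∑ x : V → Bool, Real.exp (u x) with hS
  have hS0 : 0 < S := Finset.sum_pos (fun x _ => Real.exp_pos _) ⟨fun _ => true, Finset.mem_univ _⟩
  set X : (V → ℝ) → ℝ := fun t => ∑ x : V → Bool, (Real.exp (u x) / S) * φ (∑ v, t v * spin (x v))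
    with hXdef
  have hX : IsPD X := by
    refine IsPD.sum Finset.univ (fun (x : V → Bool) (t : V → ℝ) =>
      (Real.exp (u x) / S) * φ (∑ v, t v * spin (x v))) fun x _ => ?_
    exact (IsPD.of_line ν (fun v => spin (x v))).smul (by positivity)
  set v0 := ν.real Set.univ with hv0
  have hv0nn : 0 ≤ v0 := measureReal_nonneg
  have hXv : ∀ t, |X t| ≤ v0 := by
    intro t
    refine (Finset.abs_sum_le_sum_abs _ _).trans ?_
    calc ∑ x : V → Bool, |(Real.exp (u x) / S) * φ (∑ v, t v * spin (x v))|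
        ≤ ∑ x : V → Bool, (Real.exp (u x) / S) * v0 := by
          refine Finset.sum_le_sum fun x _ => ?_
          rw [abs_mul, abs_of_nonneg (by positivity : 0 ≤ Real.exp (u x) / S)]
          exact mul_le_mul_of_nonneg_left (phi_bdd ν _) (by positivity)
      _ = v0 := by
          rw [← Finset.sum_mul, ← Finset.sum_div, ← hS, div_self hS0.ne', one_mul]
  have hc := h.lt
  have hpos : ∀ t, 0 < c - X t := fun t => by
    have := (abs_le.1 (hXv t)).2
    linarith
  have hW : 0 < (1 / 2 ^ Fintype.card V : ℝ) * S := by positivity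
  have key : ∀ (b : V → ℝ) (g : V → ℝ), Lam V (fun x => u x + f (fld b g x))
      = Real.log ((1 / 2 ^ Fintype.card V : ℝ) * S) + Real.log (c - X (fun i => b i * g i)) := by
    intro b g
    rw [← Real.log_mul hW.ne' (hpos _).ne']
    unfold Lam
    congr 1
    rw [mul_assoc]
    congr 1
    have e1 : ∀ x : V → Bool, Real.exp (u x + f (fld b g x))
        = c * Real.exp (u x) - S * ((Real.exp (u x) / S) * φ (∑ v, (b v * g v) * spin (x v))) := by
      intro x
      rw [Real.exp_add, h (fld b g x)]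
      unfold fld
      have : S * (Real.exp (u x) / S * φ (∑ v, b v * g v * spin (x v)))
          = Real.exp (u x) * φ (∑ v, b v * g v * spin (x v)) := by
        field_simp
      rw [this, hφ]
      ring
    simp_rw [e1]
    rw [Finset.sum_sub_distrib, ← Finset.mul_sum, ← Finset.mul_sum]
    ring
  have hT : ∀ b : V → ℝ, T f b (Lam V) u = Real.log ((1 / 2 ^ Fintype.card V : ℝ) * S)
      + ∫ g, Real.log (c - X (fun i => b i * g i)) ∂(gam V) := by
    intro b
    unfold T
    simp_rw [key]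
    rw [integral_add (integrable_const _)]
    · simp
    · obtain ⟨B, hB⟩ := h.bdd
      have i1 := (T_int h.cont hB (Lam_lip (V := V)) b u).sub
        (integrable_const (Real.log ((1 / 2 ^ Fintype.card V : ℝ) * S)))
      refine i1.congr (Eventually.of_forall fun g => ?_)
      simp only [Pi.sub_apply]
      rw [key]
      ring
  have hlog := log_ineq hX hc hv0nn hXv h1 h2 h12 ha
  unfold R
  rw [hT, hT, hT]
  have h4 : k1 * Real.log ((1 / 2 ^ Fintype.card V : ℝ) * S)
      + k2 * Real.log ((1 / 2 ^ Fintype.card V : ℝ) * S)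
      = Real.log ((1 / 2 ^ Fintype.card V : ℝ) * S) := by rw [← add_mul, h12, one_mul]
  linarith

end hyp

end Vale.Agent.P157
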