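import Vale.Agent.P157.PD

/-! P157, part 2: the pattern operators acting on `1`-Lipschitz functionals of the log-weights. -/

open MeasureTheory ProbabilityTheory Real
open scoped BigOperators

namespace Vale.Agent.P157

variable {V : Type*} [Fintype V] [DecidableEq V]

/-- The spin of a Boolean. -/
noncomputable def spin (b : Bool) : ℝ := if b then 1 else -1

/-- The local field with scales `a`. -/
noncomputable def fld (a g : V → ℝ) (x : V → Bool) : ℝ := ∑ v, a v * g v * spin (x v)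

omit [DecidableEq V] in
theorem fld_cont (a : V → ℝ) (x : V → Bool) : Continuous (fun g => fld a g x) := by
  unfold fld; fun_prop

/-- One more pattern with scales `a`. -/
noncomputable def T (f : ℝ → ℝ) (a : V → ℝ) (Ψ : ((V → Bool) → ℝ) → ℝ)
    (u : (V → Bool) → ℝ) : ℝ :=
  ∫ g, Ψ (fun x => u x + f (fld a g x)) ∂(gam V)

section basic

variable {f : ℝ → ℝ} {B : ℝ}

omit [DecidableEq V] in
theorem arg_cont (hf : Continuous f) (a : V → ℝ) (u : (V → Bool) → ℝ) :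
    Continuous (fun (g : V → ℝ) (x : V → Bool) => u x + f (fld a g x)) := by
  refine continuous_pi fun x => ?_
  exact continuous_const.add (hf.comp (fld_cont a x))

theorem lip_apply {Ψ : ((V → Bool) → ℝ) → ℝ} (hΨ : LipschitzWith 1 Ψ)
    {u w : (V → Bool) → ℝ} {d : ℝ} (hd : 0 ≤ d) (h : ∀ x, |u x - w x| ≤ d) :
    |Ψ u - Ψ w| ≤ d := by
  have h1 := hΨ.dist_le_mul u w
  have h2 : dist u w ≤ d := (dist_pi_le_iff hd).2 fun x => by
    rw [Real.dist_eq]; exact h x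
  rw [Real.dist_eq] at h1
  simp only [NNReal.coe_one, one_mul] at h1
  linarith

theorem T_bdd (hB : ∀ s, |f s| ≤ B) {Ψ : ((V → Bool) → ℝ) → ℝ}
    (hΨ : LipschitzWith 1 Ψ) (a : V → ℝ) (u : (V → Bool) → ℝ) (g : V → ℝ) :
    |Ψ (fun x => u x + f (fld a g x)) - Ψ u| ≤ B := by
  refine lip_apply hΨ (le_trans (abs_nonneg _) (hB 0)) fun x => ?_
  rw [add_sub_cancel_left]
  exact hB _

theorem T_int (hf : Continuous f) (hB : ∀ s, |f s| ≤ B) {Ψ : ((V → Bool) → ℝ) → ℝ}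
    (hΨ : LipschitzWith 1 Ψ) (a : V → ℝ) (u : (V → Bool) → ℝ) :
    Integrable (fun g => Ψ (fun x => u x + f (fld a g x))) (gam V) := by
  refine Integrable.of_bound (hΨ.continuous.comp (arg_cont hf a u)).aestronglyMeasurable
    (|Ψ u| + B) (Filter.Eventually.of_forall fun g => ?_)
  rw [Real.norm_eq_abs]
  have h1 := T_bdd hB hΨ a u g
  have h2 := abs_sub_abs_le_abs_sub (Ψ (fun x => u x + f (fld a g x))) (Ψ u)
  linarith

theorem T_lip (hf : Continuous f) (hB : ∀ s, |f s| ≤ B) {Ψ : ((V → Bool) → ℝ) → ℝ}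
    (hΨ : LipschitzWith 1 Ψ) (a : V → ℝ) : LipschitzWith 1 (T f a Ψ) := by
  refine LipschitzWith.of_dist_le_mul fun u w => ?_
  rw [Real.dist_eq, NNReal.coe_one, one_mul]
  unfold T
  rw [← integral_sub (T_int hf hB hΨ a u) (T_int hf hB hΨ a w)]
  have h1 : ∀ g, ‖Ψ (fun x => u x + f (fld a g x)) - Ψ (fun x => w x + f (fld a g x))‖
      ≤ dist u w := fun g => by
    rw [Real.norm_eq_abs]
    refine lip_apply hΨ dist_nonneg fun x => ?_
    rw [add_sub_add_right_eq_sub, ← Real.dist_eq]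
    exact dist_le_pi_dist u w x
  have h2 := norm_integral_le_of_norm_le_const (μ := gam V) (Filter.Eventually.of_forall h1)
  simpa using h2

theorem T_near (hf : Continuous f) (hB : ∀ s, |f s| ≤ B) {Ψ : ((V → Bool) → ℝ) → ℝ}
    (hΨ : LipschitzWith 1 Ψ) (a : V → ℝ) (u : (V → Bool) → ℝ) : |T f a Ψ u - Ψ u| ≤ B := by
  have h0 : Ψ u = ∫ (_ : V → ℝ), Ψ u ∂(gam V) := by simp
  unfold T
  rw [h0, ← integral_sub (T_int hf hB hΨ a u) (integrable_const _)]
  have h1 : ∀ g, ‖Ψ (fun x => u x + f (fld a g x)) - Ψ u‖ ≤ B := fun g => by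
    rw [Real.norm_eq_abs]; exact T_bdd hB hΨ a u g
  have h2 := norm_integral_le_of_norm_le_const (μ := gam V) (Filter.Eventually.of_forall h1)
  simpa using h2

theorem T_mono (hf : Continuous f) (hB : ∀ s, |f s| ≤ B) {Ψ Φ : ((V → Bool) → ℝ) → ℝ}
    (hΨ : LipschitzWith 1 Ψ) (hΦ : LipschitzWith 1 Φ) (h : ∀ u, Ψ u ≤ Φ u) (a : V → ℝ)
    (u : (V → Bool) → ℝ) : T f a Ψ u ≤ T f a Φ u :=
  integral_mono (T_int hf hB hΨ a u) (T_int hf hB hΦ a u) fun g => h _

theorem T_comm (hf : Continuous f) (hB : ∀ s, |f s| ≤ B) {Ψ : ((V → Bool) → ℝ) → ℝ}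
    (hΨ : LipschitzWith 1 Ψ) (a b : V → ℝ) : T f a (T f b Ψ) = T f b (T f a Ψ) := by
  funext u
  unfold T
  rw [integral_integral_swap]
  · refine integral_congr_ae (Filter.Eventually.of_forall fun g => ?_)
    refine integral_congr_ae (Filter.Eventually.of_forall fun g' => ?_)
    simp only
    congr 1
    funext x
    ring
  · refine Integrable.of_bound ?_ (|Ψ u| + (B + B)) (Filter.Eventually.of_forall fun p => ?_)
    · refine Continuous.aestronglyMeasurable ?_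
      simp only [Function.uncurry_def]
      refine hΨ.continuous.comp (continuous_pi fun x => ?_)
      exact (continuous_const.add (hf.comp ((fld_cont a x).comp continuous_fst))).add
        (hf.comp ((fld_cont b x).comp continuous_snd))
    · rw [Real.norm_eq_abs]
      simp only [Function.uncurry_def]
      have hB0 : 0 ≤ B := le_trans (abs_nonneg _) (hB 0)
      have h1 : |Ψ (fun x => u x + f (fld a p.1 x) + f (fld b p.2 x)) - Ψ u| ≤ B + B := by
        refine lip_apply hΨ (by linarith) fun x => ?_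
        have e : u x + f (fld a p.1 x) + f (fld b p.2 x) - u x
            = f (fld a p.1 x) + f (fld b p.2 x) := by ring
        rw [e]
        exact (abs_add_le _ _).trans (add_le_add (hB _) (hB _))
      have h2 := abs_sub_abs_le_abs_sub (Ψ (fun x => u x + f (fld a p.1 x) + f (fld b p.2 x)))
        (Ψ u)
      linarith

/-- The mixed operator. -/
noncomputable def R (f : ℝ → ℝ) (k1 k2 : ℝ) (a1 a2 : V → ℝ) (Ψ : ((V → Bool) → ℝ) → ℝ)
    (u : (V → Bool) → ℝ) : ℝ :=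
  k1 * T f a1 Ψ u + k2 * T f a2 Ψ u

variable {k1 k2 : ℝ}

omit [Fintype V] [DecidableEq V] in
theorem comb_lip {Φ Ψ : ((V → Bool) → ℝ) → ℝ} [Fintype (V → Bool)] (hΦ : LipschitzWith 1 Φ)
    (hΨ : LipschitzWith 1 Ψ) (h1 : 0 ≤ k1) (h2 : 0 ≤ k2) (h12 : k1 + k2 = 1) :
    LipschitzWith 1 (fun u => k1 * Φ u + k2 * Ψ u) := by
  refine LipschitzWith.of_dist_le_mul fun u w => ?_
  have e1 := hΦ.dist_le_mul u w
  have e2 := hΨ.dist_le_mul u w
  rw [Real.dist_eq, NNReal.coe_one, one_mul] at *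
  have : k1 * Φ u + k2 * Ψ u - (k1 * Φ w + k2 * Ψ w) = k1 * (Φ u - Φ w) + k2 * (Ψ u - Ψ w) := by
    ring
  rw [this]
  calc |k1 * (Φ u - Φ w) + k2 * (Ψ u - Ψ w)|
      ≤ |k1 * (Φ u - Φ w)| + |k2 * (Ψ u - Ψ w)| := abs_add_le _ _
    _ = k1 * |Φ u - Φ w| + k2 * |Ψ u - Ψ w| := by
        rw [abs_mul, abs_mul, abs_of_nonneg h1, abs_of_nonneg h2]
    _ ≤ k1 * dist u w + k2 * dist u w :=
        add_le_add (mul_le_mul_of_nonneg_left e1 h1) (mul_le_mul_of_nonneg_left e2 h2)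
    _ = dist u w := by rw [← add_mul, h12, one_mul]

theorem R_lip (hf : Continuous f) (hB : ∀ s, |f s| ≤ B) {Ψ : ((V → Bool) → ℝ) → ℝ}
    (hΨ : LipschitzWith 1 Ψ) (h1 : 0 ≤ k1) (h2 : 0 ≤ k2) (h12 : k1 + k2 = 1) (a1 a2 : V → ℝ) :
    LipschitzWith 1 (R f k1 k2 a1 a2 Ψ) :=
  comb_lip (T_lip hf hB hΨ a1) (T_lip hf hB hΨ a2) h1 h2 h12

theorem R_mono (hf : Continuous f) (hB : ∀ s, |f s| ≤ B) {Ψ Φ : ((V → Bool) → ℝ) → ℝ}
    (hΨ : LipschitzWith 1 Ψ) (hΦ : LipschitzWith 1 Φ) (h : ∀ u, Ψ u ≤ Φ u)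
    (h1 : 0 ≤ k1) (h2 : 0 ≤ k2) (a1 a2 : V → ℝ)
    (u : (V → Bool) → ℝ) : R f k1 k2 a1 a2 Ψ u ≤ R f k1 k2 a1 a2 Φ u :=
  add_le_add (mul_le_mul_of_nonneg_left (T_mono hf hB hΨ hΦ h a1 u) h1)
    (mul_le_mul_of_nonneg_left (T_mono hf hB hΨ hΦ h a2 u) h2)

theorem T_R_comm (hf : Continuous f) (hB : ∀ s, |f s| ≤ B) {Ψ : ((V → Bool) → ℝ) → ℝ}
    (hΨ : LipschitzWith 1 Ψ) (a a1 a2 : V → ℝ) :
    T f a (R f k1 k2 a1 a2 Ψ) = R f k1 k2 a1 a2 (T f a Ψ) := by
  funext u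
  have e : T f a (R f k1 k2 a1 a2 Ψ) u
      = k1 * T f a (T f a1 Ψ) u + k2 * T f a (T f a2 Ψ) u := by
    have i1 := T_int hf hB (T_lip hf hB hΨ a1) a u
    have i2 := T_int hf hB (T_lip hf hB hΨ a2) a u
    show ∫ g, (k1 * T f a1 Ψ (fun x => u x + f (fld a g x))
      + k2 * T f a2 Ψ (fun x => u x + f (fld a g x))) ∂(gam V) = _
    rw [integral_add (i1.const_mul _) (i2.const_mul _), integral_const_mul, integral_const_mul]
    rfl
  rw [e, T_comm hf hB hΨ a a1, T_comm hf hB hΨ a a2]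
  rfl

theorem T_iter_lip (hf : Continuous f) (hB : ∀ s, |f s| ≤ B) {Ψ : ((V → Bool) → ℝ) → ℝ}
    (hΨ : LipschitzWith 1 Ψ) (a : V → ℝ) (M : ℕ) : LipschitzWith 1 ((T f a)^[M] Ψ) := by
  induction M with
  | zero => simpa using hΨ
  | succ M ih => rw [Function.iterate_succ_apply']; exact T_lip hf hB ih a

theorem R_iter_lip (hf : Continuous f) (hB : ∀ s, |f s| ≤ B) {Ψ : ((V → Bool) → ℝ) → ℝ}
    (hΨ : LipschitzWith 1 Ψ) (h1 : 0 ≤ k1) (h2 : 0 ≤ k2) (h12 : k1 + k2 = 1)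
    (a1 a2 : V → ℝ) (M : ℕ) : LipschitzWith 1 ((R f k1 k2 a1 a2)^[M] Ψ) := by
  induction M with
  | zero => simpa using hΨ
  | succ M ih => rw [Function.iterate_succ_apply']; exact R_lip hf hB ih h1 h2 h12 a1 a2

theorem T_iter_mono (hf : Continuous f) (hB : ∀ s, |f s| ≤ B) {Ψ Φ : ((V → Bool) → ℝ) → ℝ}
    (hΨ : LipschitzWith 1 Ψ) (hΦ : LipschitzWith 1 Φ) (h : ∀ u, Ψ u ≤ Φ u) (a : V → ℝ)
    (M : ℕ) (u : (V → Bool) → ℝ) : (T f a)^[M] Ψ u ≤ (T f a)^[M] Φ u := by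
  induction M generalizing u with
  | zero => simpa using h u
  | succ M ih =>
    rw [Function.iterate_succ_apply', Function.iterate_succ_apply']
    exact T_mono hf hB (T_iter_lip hf hB hΨ a M) (T_iter_lip hf hB hΦ a M) ih a u

theorem T_iter_R (hf : Continuous f) (hB : ∀ s, |f s| ≤ B) {Ψ : ((V → Bool) → ℝ) → ℝ}
    (hΨ : LipschitzWith 1 Ψ) (a a1 a2 : V → ℝ) (M : ℕ) :
    (T f a)^[M] (R f k1 k2 a1 a2 Ψ) = R f k1 k2 a1 a2 ((T f a)^[M] Ψ) := by
  induction M with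
  | zero => rfl
  | succ M ih =>
    rw [Function.iterate_succ_apply', ih, Function.iterate_succ_apply',
      T_R_comm hf hB (T_iter_lip hf hB hΨ a M)]

/-- Interpolation: one step implies all steps. -/
theorem interpolation (hf : Continuous f) (hB : ∀ s, |f s| ≤ B) {Ψ : ((V → Bool) → ℝ) → ℝ}
    (hΨ : LipschitzWith 1 Ψ) (h1 : 0 ≤ k1) (h2 : 0 ≤ k2) (h12 : k1 + k2 = 1)
    (a a1 a2 : V → ℝ) (hstep : ∀ u, R f k1 k2 a1 a2 Ψ u ≤ T f a Ψ u) (M : ℕ)
    (u : (V → Bool) → ℝ) : (R f k1 k2 a1 a2)^[M] Ψ u ≤ (T f a)^[M] Ψ u := by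
  induction M generalizing u with
  | zero => simp
  | succ M ih =>
    calc (R f k1 k2 a1 a2)^[M + 1] Ψ u
        = R f k1 k2 a1 a2 ((R f k1 k2 a1 a2)^[M] Ψ) u := by
          rw [Function.iterate_succ_apply']
      _ ≤ R f k1 k2 a1 a2 ((T f a)^[M] Ψ) u :=
          R_mono hf hB (R_iter_lip hf hB hΨ h1 h2 h12 a1 a2 M) (T_iter_lip hf hB hΨ a M) ih
            h1 h2 a1 a2 u
      _ = (T f a)^[M] (R f k1 k2 a1 a2 Ψ) u := by rw [T_iter_R hf hB hΨ]
      _ ≤ (T f a)^[M] (T f a Ψ) u :=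
          T_iter_mono hf hB (R_lip hf hB hΨ h1 h2 h12 a1 a2) (T_lip hf hB hΨ a) hstep a M u
      _ = (T f a)^[M + 1] Ψ u := by rw [Function.iterate_succ_apply]

/-- The number of patterns changes the iterate by at most `B` per pattern. -/
theorem T_iter_near (hf : Continuous f) (hB : ∀ s, |f s| ≤ B) {Ψ : ((V → Bool) → ℝ) → ℝ}
    (hΨ : LipschitzWith 1 Ψ) (a : V → ℝ) (M k : ℕ) (u : (V → Bool) → ℝ) :
    |(T f a)^[M + k] Ψ u - (T f a)^[M] Ψ u| ≤ B * k := by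
  induction k with
  | zero => simp
  | succ k ih =>
    have h1 := T_near hf hB (T_iter_lip hf hB hΨ a (M + k)) a u
    have e : (T f a)^[M + (k + 1)] Ψ u = T f a ((T f a)^[M + k] Ψ) u := by
      rw [← add_assoc, Function.iterate_succ_apply']
    rw [e]
    have h2 := abs_sub_le (T f a ((T f a)^[M + k] Ψ) u) ((T f a)^[M + k] Ψ u) ((T f a)^[M] Ψ u)
    push_cast
    linarith

theorem T_iter_near' (hf : Continuous f) (hB : ∀ s, |f s| ≤ B) {Ψ : ((V → Bool) → ℝ) → ℝ}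
    (hΨ : LipschitzWith 1 Ψ) (a : V → ℝ) (M N : ℕ) (u : (V → Bool) → ℝ) :
    |(T f a)^[M] Ψ u - (T f a)^[N] Ψ u| ≤ B * |(M : ℝ) - N| := by
  rcases le_total N M with h | h
  · obtain ⟨k, rfl⟩ := Nat.exists_eq_add_of_le h
    have := T_iter_near hf hB hΨ a N k u
    have e : |((N + k : ℕ) : ℝ) - N| = k := by
      push_cast
      rw [add_sub_cancel_left, abs_of_nonneg (Nat.cast_nonneg k)]
    rw [e]
    exact this
  · obtain ⟨k, rfl⟩ := Nat.exists_eq_add_of_le h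
    have := T_iter_near hf hB hΨ a M k u
    have e : |(M : ℝ) - ((M + k : ℕ) : ℝ)| = k := by
      push_cast
      rw [abs_sub_comm, add_sub_cancel_left, abs_of_nonneg (Nat.cast_nonneg k)]
    rw [e, abs_sub_comm]
    exact this

end basic

/-- The log-average functional. -/
noncomputable def Lam (V : Type*) [Fintype V] [DecidableEq V] (u : (V → Bool) → ℝ) : ℝ :=
  Real.log ((1 / 2 ^ Fintype.card V) * ∑ x : V → Bool, Real.exp (u x))

theorem Lam_pos (u : (V → Bool) → ℝ) :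
    0 < (1 / 2 ^ Fintype.card V) * ∑ x : V → Bool, Real.exp (u x) := by
  have : 0 < ∑ x : V → Bool, Real.exp (u x) :=
    Finset.sum_pos (fun x _ => Real.exp_pos _) ⟨fun _ => true, Finset.mem_univ _⟩
  positivity

theorem Lam_le (u w : (V → Bool) → ℝ) (d : ℝ) (h : ∀ x, u x ≤ w x + d) :
    Lam V u ≤ Lam V w + d := by
  unfold Lam
  have e : Real.log ((1 / 2 ^ Fintype.card V) * ∑ x : V → Bool, Real.exp (w x)) + d
      = Real.log ((1 / 2 ^ Fintype.card V) * (∑ x : V → Bool, Real.exp (w x)) * Real.exp d) := by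
    rw [Real.log_mul (Lam_pos w).ne' (Real.exp_pos d).ne', Real.log_exp]
  rw [e]
  refine Real.log_le_log (Lam_pos u) ?_
  rw [mul_assoc]
  refine mul_le_mul_of_nonneg_left ?_ (by positivity)
  rw [Finset.sum_mul]
  refine Finset.sum_le_sum fun x _ => ?_
  rw [← Real.exp_add]
  exact Real.exp_le_exp.2 (h x)

theorem Lam_lip : LipschitzWith 1 (Lam V) := by
  refine LipschitzWith.of_dist_le_mul fun u w => ?_
  rw [Real.dist_eq, NNReal.coe_one, one_mul, abs_le]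
  have h : ∀ x, |u x - w x| ≤ dist u w := fun x => by
    rw [← Real.dist_eq]; exact dist_le_pi_dist u w x
  have h1 := Lam_le u w (dist u w) fun x => by have := abs_le.1 (h x); linarith
  have h2 := Lam_le w u (dist u w) fun x => by have := abs_le.1 (h x); linarith
  constructor <;> linarith

end Vale.Agent.P157
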