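import Mathlib

/-! P157, part 1: positive definite functions on `ℝ^V` (cosine transforms of finite measures) and
their Gaussian averages. -/

open MeasureTheory ProbabilityTheory Real
open scoped BigOperators

namespace Vale.Agent.P157

variable {V : Type*} [Fintype V]

/-- The standard Gaussian measure on `ℝ^V`. -/
noncomputable def gam (V : Type*) [Fintype V] : Measure (V → ℝ) :=
  Measure.pi fun _ : V => gaussianReal 0 1

instance : IsProbabilityMeasure (gam V) := by unfold gam; infer_instance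

/-- Positive definite functions: cosine transforms of finite measures. -/
def IsPD (X : (V → ℝ) → ℝ) : Prop :=
  ∃ Λ : Measure (V → ℝ), IsFiniteMeasure Λ ∧ ∀ t, X t = ∫ u, Real.cos (∑ v, t v * u v) ∂Λ

theorem cos_cont (t : V → ℝ) : Continuous (fun u : V → ℝ => Real.cos (∑ v, t v * u v)) := by
  fun_prop

theorem cos_int (Λ : Measure (V → ℝ)) [IsFiniteMeasure Λ] (t : V → ℝ) :
    Integrable (fun u => Real.cos (∑ v, t v * u v)) Λ := by
  refine Integrable.of_bound (cos_cont t).aestronglyMeasurable 1 ?_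
  exact Filter.Eventually.of_forall fun u => by
    rw [Real.norm_eq_abs]; exact Real.abs_cos_le_one _

theorem IsPD.add {X Y : (V → ℝ) → ℝ} (hX : IsPD X) (hY : IsPD Y) :
    IsPD (fun t => X t + Y t) := by
  obtain ⟨Λ, h, hΛ⟩ := hX
  obtain ⟨Λ', h', hΛ'⟩ := hY
  refine ⟨Λ + Λ', inferInstance, fun t => ?_⟩
  show X t + Y t = _
  rw [integral_add_measure (cos_int Λ t) (cos_int Λ' t), hΛ, hΛ']

theorem IsPD.smul {X : (V → ℝ) → ℝ} (hX : IsPD X) {a : ℝ} (ha : 0 ≤ a) :
    IsPD (fun t => a * X t) := by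
  obtain ⟨Λ, h, hΛ⟩ := hX
  refine ⟨ENNReal.ofReal a • Λ, ?_, fun t => ?_⟩
  · exact Measure.smul_finite _ ENNReal.ofReal_ne_top
  · show a * X t = _
    rw [integral_smul_measure, ENNReal.toReal_ofReal ha, hΛ, smul_eq_mul]

theorem IsPD.one : IsPD (fun _ : V → ℝ => (1 : ℝ)) := by
  refine ⟨Measure.dirac 0, inferInstance, fun t => ?_⟩
  rw [integral_dirac]
  simp

theorem IsPD.zero : IsPD (fun _ : V → ℝ => (0 : ℝ)) := by
  refine ⟨0, inferInstance, fun t => ?_⟩
  simp

theorem IsPD.sum {ι : Type*} (s : Finset ι) (X : ι → (V → ℝ) → ℝ) (h : ∀ i ∈ s, IsPD (X i)) :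
    IsPD (fun t => ∑ i ∈ s, X i t) := by
  classical
  induction s using Finset.induction_on with
  | empty => simpa using IsPD.zero
  | insert i s hi ih =>
    have h1 := (h i (Finset.mem_insert_self _ _)).add
      (ih fun j hj => h j (Finset.mem_insert_of_mem hj))
    simpa [Finset.sum_insert hi] using h1

theorem IsPD.mul {X Y : (V → ℝ) → ℝ} (hX : IsPD X) (hY : IsPD Y) :
    IsPD (fun t => X t * Y t) := by
  obtain ⟨Λ, h, hΛ⟩ := hX
  obtain ⟨Λ', h', hΛ'⟩ := hY
  have hm1 : Measurable (fun p : (V → ℝ) × (V → ℝ) => p.1 + p.2) := by fun_prop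
  have hm2 : Measurable (fun p : (V → ℝ) × (V → ℝ) => p.1 - p.2) := by fun_prop
  refine ⟨ENNReal.ofReal (1 / 2) • (Measure.map (fun p : (V → ℝ) × (V → ℝ) => p.1 + p.2) (Λ.prod Λ')
    + Measure.map (fun p : (V → ℝ) × (V → ℝ) => p.1 - p.2) (Λ.prod Λ')), ?_, fun t => ?_⟩
  · exact Measure.smul_finite _ ENNReal.ofReal_ne_top
  · show X t * Y t = _
    rw [integral_smul_measure, ENNReal.toReal_ofReal (by norm_num),
      integral_add_measure (cos_int _ t) (cos_int _ t),
      integral_map hm1.aemeasurable (cos_cont t).aestronglyMeasurable,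
      integral_map hm2.aemeasurable (cos_cont t).aestronglyMeasurable, hΛ, hΛ',
      ← integral_prod_mul, smul_eq_mul, ← integral_add, ← integral_const_mul]
    · refine integral_congr_ae (Filter.Eventually.of_forall fun p => ?_)
      simp only [Pi.add_apply, Pi.sub_apply, mul_add, mul_sub, Finset.sum_add_distrib,
        Finset.sum_sub_distrib]
      rw [Real.cos_add, Real.cos_sub]
      ring
    · refine Integrable.of_bound ?_ 1 ?_
      · exact ((cos_cont t).comp (continuous_fst.add continuous_snd)).aestronglyMeasurable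
      · exact Filter.Eventually.of_forall fun u => by
          rw [Real.norm_eq_abs]; exact Real.abs_cos_le_one _
    · refine Integrable.of_bound ?_ 1 ?_
      · exact ((cos_cont t).comp (continuous_fst.sub continuous_snd)).aestronglyMeasurable
      · exact Filter.Eventually.of_forall fun u => by
          rw [Real.norm_eq_abs]; exact Real.abs_cos_le_one _

theorem IsPD.pow {X : (V → ℝ) → ℝ} (hX : IsPD X) (n : ℕ) : IsPD (fun t => X t ^ n) := by
  induction n with
  | zero => simpa using IsPD.one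
  | succ n ih => simpa [pow_succ] using ih.mul hX

/-- The Gaussian average of a cosine. -/
theorem gauss_cos (w : V → ℝ) :
    ∫ g, Real.cos (∑ v, g v * w v) ∂(gam V) = Real.exp (-(∑ v, w v ^ 2) / 2) := by
  have h1 : ∫ g : V → ℝ, ∏ v, Complex.exp ((w v : ℂ) * (g v : ℂ) * Complex.I) ∂(gam V)
      = ∏ v, ∫ x, Complex.exp ((w v : ℂ) * (x : ℂ) * Complex.I) ∂(gaussianReal 0 1) := by
    unfold gam
    exact integral_fintype_prod_eq_prod (𝕜 := ℂ)
      (fun v (x : ℝ) => Complex.exp ((w v : ℂ) * (x : ℂ) * Complex.I))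
  have h2 : ∀ v, ∫ x, Complex.exp ((w v : ℂ) * (x : ℂ) * Complex.I) ∂(gaussianReal 0 1)
      = Complex.exp (-(w v : ℂ) ^ 2 / 2) := by
    intro v
    rw [← charFun_apply_real, charFun_gaussianReal]
    congr 1
    push_cast
    ring
  simp_rw [h2] at h1
  rw [← Complex.exp_sum] at h1
  have h3 : ∀ g : V → ℝ, ∏ v, Complex.exp ((w v : ℂ) * (g v : ℂ) * Complex.I)
      = Complex.exp (((∑ v, g v * w v : ℝ) : ℂ) * Complex.I) := by
    intro g
    rw [← Complex.exp_sum]
    congr 1
    push_cast
    rw [Finset.sum_mul]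
    refine Finset.sum_congr rfl fun v _ => by ring
  simp_rw [h3] at h1
  have h4 : Integrable (fun g : V → ℝ => Complex.exp (((∑ v, g v * w v : ℝ) : ℂ) * Complex.I))
      (gam V) := by
    refine Integrable.of_bound ?_ 1 ?_
    · refine Continuous.aestronglyMeasurable ?_
      fun_prop
    · exact Filter.Eventually.of_forall fun u => by
        rw [Complex.norm_exp_ofReal_mul_I]
  have h5 := congrArg Complex.re h1
  rw [← Complex.reCLM_apply, ← ContinuousLinearMap.integral_comp_comm _ h4] at h5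
  simp only [Complex.reCLM_apply, Complex.exp_ofReal_mul_I_re] at h5
  rw [h5]
  have h6 : (∑ v, -(w v : ℂ) ^ 2 / 2) = ((-(∑ v, w v ^ 2) / 2 : ℝ) : ℂ) := by
    push_cast
    rw [← Finset.sum_div, Finset.sum_neg_distrib]
  rw [h6, Complex.exp_ofReal_re]

/-- The Gaussian average of a positive definite function of a rescaled Gaussian vector. -/
theorem gauss_pd (Λ : Measure (V → ℝ)) [IsFiniteMeasure Λ] (a : V → ℝ) :
    ∫ g, (∫ u, Real.cos (∑ v, (a v * g v) * u v) ∂Λ) ∂(gam V)
      = ∫ u, Real.exp (-(∑ v, (a v * u v) ^ 2) / 2) ∂Λ := by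
  rw [integral_integral_swap]
  · refine integral_congr_ae (Filter.Eventually.of_forall fun u => ?_)
    have := gauss_cos (V := V) (fun v => a v * u v)
    simp only at this ⊢
    rw [← this]
    refine integral_congr_ae (Filter.Eventually.of_forall fun g => ?_)
    simp only
    congr 1
    refine Finset.sum_congr rfl fun v _ => by ring
  · refine Integrable.of_bound ?_ 1 ?_
    · refine Continuous.aestronglyMeasurable ?_
      simp only [Function.uncurry_def]
      fun_prop
    · exact Filter.Eventually.of_forall fun u => by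
        rw [Real.norm_eq_abs]; exact Real.abs_cos_le_one _

theorem exp_int (Λ : Measure (V → ℝ)) [IsFiniteMeasure Λ] (a : V → ℝ) :
    Integrable (fun u => Real.exp (-(∑ v, (a v * u v) ^ 2) / 2)) Λ := by
  refine Integrable.of_bound ?_ 1 ?_
  · refine Continuous.aestronglyMeasurable ?_
    fun_prop
  · refine Filter.Eventually.of_forall fun u => ?_
    rw [Real.norm_eq_abs, abs_of_pos (Real.exp_pos _), Real.exp_le_one_iff]
    have : 0 ≤ ∑ v, (a v * u v) ^ 2 := Finset.sum_nonneg fun v _ => sq_nonneg _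
    linarith

/-- Convexity of the Gaussian average of a positive definite function along a splitting of the
squared scales. -/
theorem IsPD.gauss_le {X : (V → ℝ) → ℝ} (hX : IsPD X) {a a1 a2 : V → ℝ} {k1 k2 : ℝ}
    (h1 : 0 ≤ k1) (h2 : 0 ≤ k2) (h12 : k1 + k2 = 1)
    (ha : ∀ v, a v ^ 2 = k1 * a1 v ^ 2 + k2 * a2 v ^ 2) :
    ∫ g, X (fun v => a v * g v) ∂(gam V)
      ≤ k1 * ∫ g, X (fun v => a1 v * g v) ∂(gam V) + k2 * ∫ g, X (fun v => a2 v * g v) ∂(gam V) := by
  obtain ⟨Λ, h, hΛ⟩ := hX
  simp_rw [hΛ]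
  rw [gauss_pd, gauss_pd, gauss_pd, ← integral_const_mul, ← integral_const_mul,
    ← integral_add ((exp_int Λ a1).const_mul _) ((exp_int Λ a2).const_mul _)]
  refine integral_mono (exp_int Λ a) (((exp_int Λ a1).const_mul _).add
    ((exp_int Λ a2).const_mul _)) fun u => ?_
  simp only
  have hq : -(∑ v, (a v * u v) ^ 2) / 2
      = k1 * (-(∑ v, (a1 v * u v) ^ 2) / 2) + k2 * (-(∑ v, (a2 v * u v) ^ 2) / 2) := by
    have : ∑ v, (a v * u v) ^ 2
        = k1 * ∑ v, (a1 v * u v) ^ 2 + k2 * ∑ v, (a2 v * u v) ^ 2 := by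
      rw [Finset.mul_sum, Finset.mul_sum, ← Finset.sum_add_distrib]
      refine Finset.sum_congr rfl fun v _ => ?_
      rw [mul_pow, ha]; ring
    rw [this]; ring
  rw [hq]
  have := convexOn_exp.2 (Set.mem_univ (-(∑ v, (a1 v * u v) ^ 2) / 2))
    (Set.mem_univ (-(∑ v, (a2 v * u v) ^ 2) / 2)) h1 h2 h12
  simpa [smul_eq_mul] using this

/-- A cosine transform of a finite measure on the line, evaluated at a linear form, is positive
definite. -/
theorem IsPD.of_line (ν : Measure ℝ) [IsFiniteMeasure ν] (y : V → ℝ) :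
    IsPD (fun t : V → ℝ => ∫ l, Real.cos (l * ∑ v, t v * y v) ∂ν) := by
  have hm : Measurable (fun l : ℝ => fun v : V => l * y v) := by fun_prop
  refine ⟨Measure.map (fun l : ℝ => fun v : V => l * y v) ν, inferInstance, fun t => ?_⟩
  rw [integral_map hm.aemeasurable (cos_cont t).aestronglyMeasurable]
  refine integral_congr_ae (Filter.Eventually.of_forall fun l => ?_)
  simp only
  congr 1
  rw [Finset.mul_sum]
  refine Finset.sum_congr rfl fun v _ => by ring

end Vale.Agent.P157
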